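import Vale.Agent.P043.Logic

/-! Clause tiles: a disjunction of insensitivity conditions is a tiling equation. -/

namespace Vale.Agent.P043

theorem til_iff {G U : Type} [AddCommGroup G] {A : Set G} {f : U → G} :
    Til A f ↔ ∀ g, ∃! u, g - f u ∈ A := by
  constructor
  · intro h g
    obtain ⟨a, ha, u, e⟩ := h.1 g
    refine ⟨u, by simpa [← e] using ha, fun u' hu' => h.2 _ hu' a ha _ _ (by simp [e])⟩
  · intro h
    refine ⟨fun g => ?_, fun a ha a' ha' u u' e => ?_⟩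
    · obtain ⟨u, hu, -⟩ := h g
      exact ⟨_, hu, u, by simp⟩
    · exact (h (a + f u)).unique (by simpa using ha) (by simpa [e] using ha')

theorem Til.coord {G U : Type} [AddCommGroup G] {A : Set G} {f : U → G} (h : Til A f) :
    ∃ c : G → U, ∀ g u, g - f u ∈ A ↔ u = c g := by
  choose c h1 h2 using til_iff.1 h
  exact ⟨c, fun g u => ⟨h2 g u, fun e => e ▸ h1 g⟩⟩

theorem cyc_inj {L : Type} (nx : L → L)
    (hnx : ∀ D : Set L, (∀ n ∈ D, nx n ∈ D) → ∀ n ∈ D, ∀ k, k ∈ D)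
    (F : L → Bool → Bool) (k : L) (hk : F k true = F k false) :
    Function.Injective fun (ε : L → Bool) l => xor (ε l) (F l (ε (nx l))) := by
  intro ε ε' h
  have h1 : ∀ l, xor (ε l) (F l (ε (nx l))) = xor (ε' l) (F l (ε' (nx l))) := congrFun h
  funext n
  by_contra hn
  refine hnx {l | ε l ≠ ε' l} (fun l hl e => hl ?_) n hn k ?_
  · have := h1 l
    rw [e] at this
    simpa using this
  · have h2 : ∀ b b', F k b = F k b' := by
      rintro (_ | _) (_ | _) <;> simp [hk]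
    have := h1 k
    rw [h2 (ε (nx k)) (ε' (nx k))] at this
    simpa using this

theorem cyc_fix {L : Type} [Finite L] (nx : L → L)
    (hnx : ∀ D : Set L, (∀ n ∈ D, nx n ∈ D) → ∀ n ∈ D, ∀ k, k ∈ D)
    (F : L → Bool → Bool) (k : L) (hk : F k true = F k false) :
    ∃! ε : L → Bool, ∀ l, ε l = F l (ε (nx l)) := by
  have hi := cyc_inj nx hnx F k hk
  obtain ⟨ε, h⟩ := Finite.injective_iff_surjective.1 hi fun _ => false
  have key : ∀ ε : L → Bool, (∀ l, ε l = F l (ε (nx l))) ↔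
      (fun l => xor (ε l) (F l (ε (nx l)))) = fun _ => false := fun ε => by
    simp [funext_iff]
  exact ⟨ε, (key ε).2 h, fun ε' h' => hi (((key ε').1 h').trans h.symm)⟩

section

variable {G U L : Type} [AddCommGroup G] [Fintype L] [DecidableEq L]

/-- The clause tile. -/
def cl (t : U → G) (nx : L → L) (κ : L → U → ℕ) (m : L → G) (c : L → ℕ) (u : U) : G :=
  t u + ∑ l, if κ (nx l) u = c (nx l) then m l else 0

omit [Fintype L] in
theorem inv_sum {u : G → U} {κ : L → U → ℕ} {m : L → G}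
    (hi : ∀ l l', l ≠ l' → ∀ g, κ l (u (g - m l')) = κ l (u g)) (l : L) (ε : L → Prop)
    [DecidablePred ε] (s : Finset L) (hs : l ∉ s) (g : G) :
    κ l (u (g - ∑ l' ∈ s, if ε l' then m l' else 0)) = κ l (u g) := by
  induction s using Finset.induction_on generalizing g with
  | empty => simp
  | insert a s ha ih =>
    rw [Finset.sum_insert ha, ← sub_sub, ih fun h => hs (Finset.mem_insert_of_mem h)]
    split_ifs
    · exact hi l a (fun e => hs (e ▸ Finset.mem_insert_self _ _)) g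
    · rw [sub_zero]

theorem inv_sum' {u : G → U} {κ : L → U → ℕ} {m : L → G}
    (hi : ∀ l l', l ≠ l' → ∀ g, κ l (u (g - m l')) = κ l (u g)) (l : L) (ε : L → Prop)
    [DecidablePred ε] (g : G) :
    κ l (u (g - ∑ l', if ε l' then m l' else 0)) = κ l (u (g - if ε l then m l else 0)) := by
  rw [← Finset.add_sum_erase _ _ (Finset.mem_univ l), ← sub_sub,
    inv_sum hi l ε _ (Finset.notMem_erase l _)]

theorem til_cl {A : Set G} {t : U → G} {u : G → U} (hu : ∀ g v, g - t v ∈ A ↔ v = u g)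
    {nx : L → L} (hnx : ∀ D : Set L, (∀ n ∈ D, nx n ∈ D) → ∀ n ∈ D, ∀ k, k ∈ D)
    {κ : L → U → ℕ} {m : L → G}
    (hi : ∀ l l', l ≠ l' → ∀ g, κ l (u (g - m l')) = κ l (u g))
    (hc : ∀ g, ∃ l, κ l (u (g - m l)) = κ l (u g)) (c : L → ℕ) : Til A (cl t nx κ m c) := by
  refine til_iff.2 fun g => ?_
  obtain ⟨k, hk⟩ := hc g
  obtain ⟨ε, h1, h2⟩ := cyc_fix nx hnx
    (fun l b => decide (κ l (u (g - if b = true then m l else 0)) = c l)) k (by simp [hk])
  have h3 : ∀ v, g - cl t nx κ m c v ∈ A ↔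
      v = u (g - ∑ l, if κ (nx l) v = c (nx l) then m l else 0) := fun v => by
    rw [← hu, cl, sub_sub, add_comm]
  refine ⟨u (g - ∑ l, if ε (nx l) = true then m l else 0), ?_, fun v hv => ?_⟩
  · refine (h3 _).2 (congrArg (fun s => u (g - s)) (Finset.sum_congr rfl fun l _ => ?_))
    rw [inv_sum' hi, h1 (nx l)]
    simp
  · have h4 := (h3 v).1 hv
    have h5 := h2 (fun l => decide (κ l v = c l)) fun l => by
      have := inv_sum' hi l (fun l => κ (nx l) v = c (nx l)) g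
      rw [← h4] at this
      simp only [decide_eq_true_eq, this]
    rw [h4, ← h5]
    simp

theorem of_til_cl [Nonempty L] {A : Set G} {t : U → G} {u : G → U}
    (hu : ∀ g v, g - t v ∈ A ↔ v = u g) {nx : L → L} {κ : L → U → ℕ} {m : L → G}
    (hi : ∀ l l', l ≠ l' → ∀ g, κ l (u (g - m l')) = κ l (u g))
    (h : ∀ c, Til A (cl t nx κ m c)) (g : G) : ∃ l, κ l (u (g - m l)) = κ l (u g) := by
  by_contra hn
  rw [not_exists] at hn
  have h1 : ∀ l, κ l (u (g - ∑ l', m l')) = κ l (u (g - m l)) := fun l => by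
    simpa using inv_sum' hi l (fun _ => True) g
  have h2 := (til_iff.1 (h fun l => κ l (u (g - m l))) g).unique (y₁ := u g)
    (y₂ := u (g - ∑ l', m l')) (by
      have : ∀ l, ¬ κ l (u g) = κ l (u (g - m l)) := fun l e => hn l e.symm
      simpa [cl, this] using (hu g _).2 rfl) (by
      simp only [cl, h1, if_true]
      rw [add_comm, ← sub_sub]
      exact (hu _ _).2 rfl)
  obtain ⟨l⟩ := ‹Nonempty L›
  exact hn l (by rw [← h1, ← h2])

end

/-- The window contains the base tile moved by short sums of elements of `S`. -/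
def Win {G U : Type} [AddCommGroup G] (t : U → G) (S : Finset G) (L : Type) [Fintype L]
    (W : Finset G) : Prop :=
  ∀ (u : U) (m : L → G), (∀ l, m l ∈ S) → t u + ∑ l, m l ∈ W

theorem win_eventually {G U : Type} [AddCommGroup G] [Finite U] (t : U → G) (S : Finset G)
    (L : Type) [Fintype L] : ∀ᶠ W in Filter.atTop, Win t S L W := by
  have : ∀ᶠ W : Finset G in Filter.atTop, ∀ p : U × (L → S), t p.1 + ∑ l, (p.2 l : G) ∈ W :=
    Filter.eventually_all.2 fun p => (Filter.eventually_ge_atTop {t p.1 + ∑ l, (p.2 l : G)}).mono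
      fun W hW => hW (Finset.mem_singleton_self _)
  exact this.mono fun W hW u m hm => hW (u, fun l => ⟨m l, hm l⟩)

section Transfer

variable {G U : Type} [AddCommGroup G] {A₀ A : Set G} {t : U → G} {u₀ u : G → U} {S W : Finset G}

theorem transfer' (hu₀ : ∀ g v, g - t v ∈ A₀ ↔ v = u₀ g) (hu : ∀ g v, g - t v ∈ A ↔ v = u g)
    (hA : ∀ f : U → G, (∀ v, f v ∈ W) → Til A₀ f → Til A f) (h0 : 0 ∈ S)
    {L : Type} [Fintype L] [Nonempty L] (hW : Win t S L W) (κ : L → U → ℕ) (m : L → G)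
    (hm : ∀ l, m l ∈ S)
    (hi₀ : ∀ l l', l ≠ l' → ∀ g, κ l (u₀ (g - m l')) = κ l (u₀ g))
    (hi : ∀ l l', l ≠ l' → ∀ g, κ l (u (g - m l')) = κ l (u g))
    (hc : ∀ g, ∃ l, κ l (u₀ (g - m l)) = κ l (u₀ g)) (g : G) :
    ∃ l, κ l (u (g - m l)) = κ l (u g) := by
  classical
  obtain ⟨nx, hnx⟩ := exists_cyc L
  refine of_til_cl (nx := nx) hu hi (fun c => hA _ (fun v => hW v _ fun l => ?_)
    (til_cl hu₀ hnx hi₀ hc c)) g
  split_ifs
  exacts [hm l, h0]

theorem transfer_one (hu₀ : ∀ g v, g - t v ∈ A₀ ↔ v = u₀ g) (hu : ∀ g v, g - t v ∈ A ↔ v = u g)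
    (hA : ∀ f : U → G, (∀ v, f v ∈ W) → Til A₀ f → Til A f) (h0 : 0 ∈ S)
    (hW : Win t S Unit W) (κ : U → ℕ) {m : G} (hm : m ∈ S)
    (hc : ∀ g, κ (u₀ (g - m)) = κ (u₀ g)) (g : G) : κ (u (g - m)) = κ (u g) := by
  obtain ⟨-, h⟩ := transfer' hu₀ hu hA h0 hW (fun _ => κ) (fun _ => m) (fun _ => hm)
    (fun _ _ h => absurd rfl h) (fun _ _ h => absurd rfl h) (fun g => ⟨(), hc g⟩) g
  exact h

theorem transfer (hu₀ : ∀ g v, g - t v ∈ A₀ ↔ v = u₀ g) (hu : ∀ g v, g - t v ∈ A ↔ v = u g)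
    (hA : ∀ f : U → G, (∀ v, f v ∈ W) → Til A₀ f → Til A f) (h0 : 0 ∈ S)
    (hW1 : Win t S Unit W) {L : Type} [Fintype L] [Nonempty L] (hW : Win t S L W)
    (κ : L → U → ℕ) (m : L → G) (hm : ∀ l, m l ∈ S)
    (hi₀ : ∀ l l', l ≠ l' → ∀ g, κ l (u₀ (g - m l')) = κ l (u₀ g))
    (hc : ∀ g, ∃ l, κ l (u₀ (g - m l)) = κ l (u₀ g)) (g : G) :
    ∃ l, κ l (u (g - m l)) = κ l (u g) :=
  transfer' hu₀ hu hA h0 hW κ m hm hi₀
    (fun l l' h => transfer_one hu₀ hu hA h0 hW1 (κ l) (hm l') (hi₀ l l' h)) hc g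

end Transfer

/-- Invariance under generators gives invariance under the subgroup. -/
theorem inv_of_gen {G D : Type} [AddCommGroup G] {K : AddSubgroup G} {s : Finset G}
    (hs : AddSubgroup.closure (s : Set G) = K) (T : G → Prop)
    (hT : ∀ g, T g → ∀ m ∈ K, T (g - m)) (φ : G → D)
    (h : ∀ m ∈ s, ∀ g, T g → φ (g - m) = φ g) : ∀ m ∈ K, ∀ g, T g → φ (g - m) = φ g := by
  intro m hm
  rw [← hs] at hm
  induction hm using AddSubgroup.closure_induction with
  | mem m hm => exact h m hm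
  | zero => simp
  | add m m' hm _ ih ih' =>
    intro g hg
    rw [← sub_sub, ih' _ (hT g hg m (hs ▸ hm)), ih g hg]
  | neg m hm ih =>
    intro g hg
    rw [← ih _ (hT g hg (-m) (K.neg_mem (hs ▸ hm)))]
    simp

end Vale.Agent.P043
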