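import Mathlib

/-! A rigid coloured system of residues. -/

namespace Vale.Agent.P043

theorem exists_seq (T : ℕ) [NeZero T] : ∃ (M : ℕ) (τ : ℕ → ZMod T), 2 ≤ M ∧
    ∀ h : ℕ, 0 < h → 2 * h ≤ M → ∀ ξ ξ' : ZMod T, ∃ r, r + h < M ∧ τ r = ξ ∧ τ (r + h) = ξ' := by
  have hT : 0 < T := Nat.pos_of_ne_zero (NeZero.ne T)
  obtain ⟨S, hS⟩ : ∃ S, S = T * T := ⟨_, rfl⟩
  have hS0 : 0 < S := hS ▸ Nat.mul_pos hT hT
  have key : ∀ ξ ξ' : ZMod T, ξ'.val + T * ξ.val < S ∧ (ξ'.val + T * ξ.val) / T = ξ.val := by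
    intro ξ ξ'
    have h1 := ZMod.val_lt ξ
    have h2 := ZMod.val_lt ξ'
    refine ⟨by nlinarith, ?_⟩
    rw [Nat.add_mul_div_left _ _ hT, Nat.div_eq_of_lt h2, zero_add]
  refine ⟨2 * (S + S * S), fun r => if r < S then (r / T : ℕ) else if r < S + (S + S * S) then r
    else if (r - (S + (S + S * S))) % S = 0 then ((r - (S + (S + S * S))) / S / T : ℕ)
    else ((r - (S + (S + S * S))) / S : ℕ), by omega, fun h h0 h1 ξ ξ' => ?_⟩
  by_cases h2 : S ≤ h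
  · obtain ⟨h3, h4⟩ := key ξ (ξ' - h)
    refine ⟨(ξ' - h).val + T * ξ.val, by omega, ?_, ?_⟩
    · simp only [if_pos h3, h4, ZMod.natCast_zmod_val]
    · beta_reduce
      rw [if_neg (by omega), if_pos (by omega)]
      simp
  · obtain ⟨h3, h4⟩ := key ξ ξ'
    have h5 : S * (ξ'.val + T * ξ.val) + S ≤ S * S := by nlinarith
    refine ⟨S + (S + S * S) + S * (ξ'.val + T * ξ.val), by omega, ?_, ?_⟩
    · beta_reduce
      rw [if_neg (by omega), if_neg (by omega), Nat.add_sub_cancel_left, if_pos (Nat.mul_mod_right _ _),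
        Nat.mul_div_cancel_left _ hS0, h4, ZMod.natCast_zmod_val]
    · beta_reduce
      rw [if_neg (by omega), if_neg (by omega), add_assoc (S + (S + S * S)), Nat.add_sub_cancel_left,
        Nat.mul_add_mod, Nat.mod_eq_of_lt (by omega), if_neg (by omega), Nat.mul_add_div hS0,
        Nat.div_eq_of_lt (by omega : h < S)]
      simp

theorem exists_seq' (T : ℕ) [NeZero T] : ∃ (M : ℕ) (τ : ℤ → ZMod T), 2 ≤ M ∧
    ∀ n : ℤ, |n| ≤ M → ¬ (M : ℤ) ∣ n → ∃ s : SignType, ∀ ξ ξ' : ZMod T, ∃ r r' : ℤ,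
      (0 ≤ r ∧ r < M) ∧ (0 ≤ r' ∧ r' < M) ∧ τ r = ξ ∧ τ r' = ξ' ∧ r' + M * s - r = n := by
  obtain ⟨M, τ, hM, h⟩ := exists_seq T
  refine ⟨M, fun r => τ r.toNat, hM, fun n h1 h2 => ?_⟩
  have key : ∀ k : ℤ, k ≠ 0 → 2 * |k| ≤ M → ∀ ξ ξ' : ZMod T, ∃ r r' : ℤ,
      (0 ≤ r ∧ r < M) ∧ (0 ≤ r' ∧ r' < M) ∧ τ r.toNat = ξ ∧ τ r'.toNat = ξ' ∧ r' - r = k := by
    intro k hk h3 ξ ξ'
    rcases lt_or_gt_of_ne hk with h4 | h4
    · obtain ⟨r, h5, h6, h7⟩ := h k.natAbs (by omega) (by rw [abs_of_neg h4] at h3; omega) ξ' ξ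
      exact ⟨(r + k.natAbs : ℕ), r, by omega, by omega, h7, h6, by omega⟩
    · obtain ⟨r, h5, h6, h7⟩ := h k.natAbs (by omega) (by rw [abs_of_pos h4] at h3; omega) ξ ξ'
      exact ⟨r, (r + k.natAbs : ℕ), by omega, by omega, h6, h7, by omega⟩
  rw [abs_le] at h1
  have h3 : n ≠ 0 := by rintro rfl; exact h2 (dvd_zero _)
  have h4 : n ≠ M := by rintro rfl; exact h2 dvd_rfl
  have h5 : n ≠ -M := by rintro rfl; exact h2 (dvd_neg.2 dvd_rfl)
  by_cases c1 : M < 2 * n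
  · refine ⟨1, fun ξ ξ' => ?_⟩
    obtain ⟨r, r', h6, h7, h8, h9, e⟩ :=
      key (n - M) (by omega) (by rw [abs_of_nonpos] <;> omega) ξ ξ'
    exact ⟨r, r', h6, h7, h8, h9, by simp; omega⟩
  · by_cases c2 : 2 * n < -M
    · refine ⟨-1, fun ξ ξ' => ?_⟩
      obtain ⟨r, r', h6, h7, h8, h9, e⟩ :=
        key (n + M) (by omega) (by rw [abs_of_nonneg] <;> omega) ξ ξ'
      exact ⟨r, r', h6, h7, h8, h9, by simp; omega⟩
    · refine ⟨0, fun ξ ξ' => ?_⟩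
      obtain ⟨r, r', h6, h7, h8, h9, e⟩ := key n h3 (by cases abs_cases n <;> omega) ξ ξ'
      exact ⟨r, r', h6, h7, h8, h9, by simp; omega⟩

theorem exists_color (d : ℕ) (I : Type) [Finite I] [Nonempty I] :
    ∃ (M : ℕ) (c : (Fin d → ℤ) → I) (φ : (Fin d → ℤ) → Fin d → ℤ), 2 ≤ M ∧
      ∀ n : Fin d → ℤ, (∀ k, |n k| ≤ M) → (∃ k, ¬ (M : ℤ) ∣ n k) → ∀ i j : I,
        ∃ r r' : Fin d → ℤ, (∀ k, 0 ≤ r k ∧ r k < M) ∧ (∀ k, 0 ≤ r' k ∧ r' k < M) ∧
          c r = i ∧ c r' = j ∧ ∀ k, r' k + M * φ r' k - (r k + M * φ r k) = n k := by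
  classical
  have : NeZero (Nat.card (I × (Fin d → SignType))) := ⟨Nat.card_pos.ne'⟩
  obtain ⟨e⟩ : Nonempty (ZMod (Nat.card (I × (Fin d → SignType))) ≃ I × (Fin d → SignType)) :=
    Finite.card_eq.1 (by rw [Nat.card_zmod])
  obtain ⟨M, τ, hM, h⟩ := exists_seq' (Nat.card (I × (Fin d → SignType)))
  refine ⟨M, fun r => (e (∑ k, τ (r k))).1, fun r k => (e (∑ k, τ (r k))).2 k, hM, ?_⟩
  rintro n h1 ⟨k0, h2⟩ i j
  have h3 : ∀ k, ∃ (r' : ℤ) (s : SignType), (0 ≤ r' ∧ r' < M) ∧ r' + M * s = n k := by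
    intro k
    have := abs_le.1 (h1 k)
    by_cases c1 : n k < 0
    · exact ⟨n k + M, -1, by omega, by simp⟩
    · by_cases c2 : n k = M
      · exact ⟨0, 1, by omega, by simp [c2]⟩
      · exact ⟨n k, 0, by omega, by simp⟩
  choose r1 s1 h3 h4 using h3
  obtain ⟨s, h5⟩ := h (n k0) (h1 k0) h2
  obtain ⟨r, r', h6, h7, h8, h9, e1⟩ := h5
    (e.symm (i, 0) - ∑ k ∈ Finset.univ \ {k0}, τ 0)
    (e.symm (j, Function.update s1 k0 s) - ∑ k ∈ Finset.univ \ {k0}, τ (r1 k))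
  have sum : ∀ (x : Fin d → ℤ) (y : ℤ), ∑ k, τ (Function.update x k0 y k) =
      τ y + ∑ k ∈ Finset.univ \ {k0}, τ (x k) := by
    intro x y
    have := Finset.sum_update_of_mem (Finset.mem_univ k0) (fun k => τ (x k)) (τ y)
    rw [← this]
    refine Finset.sum_congr rfl fun k _ => ?_
    exact Function.apply_update (fun _ => τ) x k0 y k
  have a1 : e (∑ k, τ (Function.update (0 : Fin d → ℤ) k0 r k)) = (i, 0) := by
    rw [sum, h8]; simp
  have a2 : e (∑ k, τ (Function.update r1 k0 r' k)) = (j, Function.update s1 k0 s) := by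
    rw [sum, h9]; simp
  refine ⟨Function.update 0 k0 r, Function.update r1 k0 r', fun k => ?_, fun k => ?_,
    by simp only [a1], by simp only [a2], fun k => ?_⟩
  · by_cases hk : k = k0
    · subst hk; simpa using h6
    · simp only [Function.update_of_ne hk, Pi.zero_apply]; omega
  · by_cases hk : k = k0
    · subst hk; simpa using h7
    · simpa only [Function.update_of_ne hk] using h3 k
  · simp only [a1, a2]
    by_cases hk : k = k0
    · subst hk; simpa using e1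
    · simpa [Function.update_of_ne hk] using h4 k

end Vale.Agent.P043
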