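import Vale.Agent.P043.Logic

/-! The special row gadget in `(ℤ/q²)²`. -/

namespace Vale.Agent.P043

section

variable (q : ℕ) [hq : Fact (1 < q)]

instance neZero_of_fact : NeZero q := ⟨by have := hq.out; omega⟩

/-- Reduction modulo `q`. -/
def rr : ZMod (q ^ 2) →+* ZMod q := ZMod.castHom (dvd_pow_self q two_ne_zero) (ZMod q)

/-- The lift of a residue. -/
def lf (t : ZMod q) : ZMod (q ^ 2) := (t.val : ℕ)

/-- Multiplication by `q`. -/
def io : ZMod q →+ ZMod (q ^ 2) where
  toFun i := (q * i.val : ℕ)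
  map_zero' := by simp
  map_add' i j := by
    rw [← Nat.cast_add, ← mul_add, ZMod.natCast_eq_natCast_iff, ZMod.val_add, pow_two]
    exact (Nat.mod_modEq _ _).mul_left' q

/-- The upper digit. -/
def dg (e : ZMod (q ^ 2)) : ZMod q := (e.val / q : ℕ)

variable {q}

theorem rr_lf (t : ZMod q) : rr q (lf q t) = t := by simp [lf]

theorem io_apply (i : ZMod q) : io q i = (q * i.val : ℕ) := rfl

theorem rr_io (i : ZMod q) : rr q (io q i) = 0 := by simp [io_apply]

theorem io_one : io q 1 = q := by simp [io_apply, ZMod.val_one]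

theorem val_nsmul_io (i : ZMod q) : i.val • (q : ZMod (q ^ 2)) = io q i := by
  simp [io_apply, mul_comm]

theorem io_inj : Function.Injective (io q) := by
  intro i j h
  rw [io_apply, io_apply, ZMod.natCast_eq_natCast_iff, pow_two] at h
  have := Nat.ModEq.mul_left_cancel' (NeZero.ne q) h
  exact ZMod.val_injective q (this.eq_of_lt_of_lt (ZMod.val_lt i) (ZMod.val_lt j))

theorem lf_add_io (e : ZMod (q ^ 2)) : lf q (rr q e) + io q (dg q e) = e := by
  have h0 : 0 < q := Nat.pos_of_ne_zero (NeZero.ne q)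
  have h1 : e.val / q < q := Nat.div_lt_of_lt_mul (by simpa [pow_two] using ZMod.val_lt e)
  have h2 : (rr q e).val = e.val % q := by
    rw [← ZMod.natCast_zmod_val e, map_natCast, ZMod.val_natCast, ZMod.natCast_zmod_val]
  rw [lf, io_apply, dg, h2, ZMod.val_cast_of_lt h1, ← Nat.cast_add, Nat.mod_add_div,
    ZMod.natCast_zmod_val]

theorem digits_inj {t t' i i' : ZMod q} (h : lf q t + io q i = lf q t' + io q i') :
    t = t' ∧ i = i' := by
  have h1 : t = t' := by simpa [rr_lf, rr_io] using congrArg (rr q) h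
  subst h1
  exact ⟨rfl, io_inj (add_left_cancel h)⟩

theorem exists_io {e e' : ZMod (q ^ 2)} (h : rr q e = rr q e') : ∃ i, e = e' + io q i :=
  ⟨dg q e - dg q e', by
    rw [map_sub]
    linear_combination (lf_add_io e).symm - (lf_add_io e').symm + congrArg (lf q) h⟩

/-- The upper digits of the intended solution. -/
def be (t σ : ZMod q) : ZMod q := if σ = 0 then t else σ - 1

variable (q) in
/-- The intended solution. -/
def gB : Set (ZMod (q ^ 2) × ZMod (q ^ 2)) :=
  {z | ∃ t σ, z = (lf q t, lf q σ + io q (be t σ))}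

/-- The coordinates of the intended solution. -/
def tb (z : ZMod (q ^ 2) × ZMod (q ^ 2)) : ZMod q × ZMod q :=
  (dg q z.1, dg q z.2 - be (rr q z.1) (rr q z.2))

theorem tb_spec (z : ZMod (q ^ 2) × ZMod (q ^ 2)) (u : ZMod q × ZMod q) :
    z - (io q u.1, io q u.2) ∈ gB q ↔ u = tb z := by
  constructor
  · rintro ⟨t, σ, h⟩
    rw [Prod.ext_iff, Prod.fst_sub, Prod.snd_sub] at h
    have h1 : lf q (rr q z.1) + io q (dg q z.1) = lf q t + io q u.1 := by
      rw [lf_add_io]
      linear_combination h.1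
    have h2 : lf q (rr q z.2) + io q (dg q z.2) = lf q σ + io q (be t σ + u.2) := by
      rw [lf_add_io, map_add]
      linear_combination h.2
    obtain ⟨rfl, h3⟩ := digits_inj h1
    obtain ⟨rfl, h4⟩ := digits_inj h2
    exact Prod.ext h3.symm (by simp [tb, h4])
  · rintro rfl
    refine ⟨rr q z.1, rr q z.2, Prod.ext ?_ ?_⟩
    · simp only [tb, Prod.fst_sub]
      linear_combination (lf_add_io z.1).symm
    · simp only [tb, Prod.snd_sub, map_sub]
      linear_combination (lf_add_io z.2).symm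

theorem dg_sub_io (e : ZMod (q ^ 2)) (i : ZMod q) : dg q (e - io q i) = dg q e - i := by
  refine (digits_inj (t := rr q (e - io q i)) (t' := rr q e) ?_).2
  rw [lf_add_io, map_sub]
  linear_combination (lf_add_io e).symm

theorem tb_shift (z : ZMod (q ^ 2) × ZMod (q ^ 2)) (b : Bool) (h : decide (rr q z.2 = 0) = b) :
    (tb (z - (1, if b then io q 1 else 0))).2 = (tb z).2 := by
  subst h
  by_cases h : rr q z.2 = 0
  · simp [tb, h, be, rr_io, dg_sub_io]
  · simp [tb, h, be]

/-- A column shifted lattice. -/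
def colT (φ : ZMod q → ZMod (q ^ 2)) (u : ZMod q × ZMod q) : ZMod (q ^ 2) × ZMod (q ^ 2) :=
  (io q u.1, φ u.1 + io q u.2)

/-- The antidiagonal. -/
def antiT (u : ZMod q × ZMod q) : ZMod (q ^ 2) × ZMod (q ^ 2) :=
  (lf q u.1 + io q u.2, -(lf q u.1 + io q u.2))

theorem til_gB : Til (gB q) fun u : ZMod q × ZMod q => (io q u.1, io q u.2) := by
  refine ⟨fun z => ⟨_, (tb_spec z _).2 rfl, tb z, by simp⟩, fun a ha a' ha' u u' e => ?_⟩
  rw [(tb_spec (a + (io q u.1, io q u.2)) u).1 (by simpa using ha),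
    (tb_spec (a + (io q u.1, io q u.2)) u').1 (by simpa [e] using ha')]

theorem til_col (φ : ZMod q → ZMod (q ^ 2)) : Til (gB q) (colT φ) := by
  refine til_gB.of_inj ?_
  rintro _ ⟨t, σ, rfl⟩ _ ⟨t', σ', rfl⟩ ⟨a, b⟩ ⟨a', b'⟩ e
  simp only [colT, Prod.mk_add_mk, Prod.mk.injEq] at e
  obtain ⟨rfl, rfl⟩ := digits_inj e.1
  have h : lf q σ + io q (be t σ + b) = lf q σ' + io q (be t σ' + b') := by
    rw [map_add, map_add]
    linear_combination e.2
  obtain ⟨rfl, h1⟩ := digits_inj h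
  rw [add_left_cancel h1]

theorem sum_val (t σ : ZMod q) : ∃ a r : ℕ, a < q ∧ r ≤ q ∧ r + (q + 1) * a < q ^ 2 ∧
    lf q t + (lf q σ + io q (be t σ)) = (r + (q + 1) * a : ℕ) ∧
    (r = 0 ∧ σ = 0 ∧ a = t.val ∨ r = t.val + 1 ∧ σ.val = a + 1) := by
  have h1 := ZMod.val_lt t
  have h2 := ZMod.val_lt σ
  by_cases h : σ = 0
  · refine ⟨t.val, 0, h1, by omega, by nlinarith, ?_, Or.inl ⟨rfl, h, rfl⟩⟩
    simp only [h, be, lf, io_apply, if_true, ZMod.val_zero]
    push_cast
    ring
  · obtain ⟨a, ha⟩ : ∃ a, σ.val = a + 1 :=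
      ⟨σ.val - 1, by have := (ZMod.val_eq_zero σ).not.2 h; omega⟩
    have h3 : (σ - 1).val = a := by
      rw [ZMod.val_sub (by rw [ZMod.val_one]; omega), ZMod.val_one, ha, Nat.add_sub_cancel]
    refine ⟨a, t.val + 1, by omega, by omega, by nlinarith, ?_, Or.inr ⟨rfl, ha⟩⟩
    simp only [h, be, lf, io_apply, if_false, h3, ha]
    push_cast
    ring

theorem til_anti : Til (gB q) (antiT (q := q)) := by
  refine til_gB.of_inj ?_
  rintro _ ⟨t, σ, rfl⟩ _ ⟨t', σ', rfl⟩ ⟨a, b⟩ ⟨a', b'⟩ e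
  simp only [antiT, Prod.mk_add_mk, Prod.mk.injEq] at e
  obtain ⟨c, r, h1, h2, h3, h4, h5⟩ := sum_val t σ
  obtain ⟨c', r', h1', h2', h3', h4', h5'⟩ := sum_val t' σ'
  have h6 : ((r + (q + 1) * c : ℕ) : ZMod (q ^ 2)) = (r' + (q + 1) * c' : ℕ) := by
    rw [← h4, ← h4']
    linear_combination e.1 + e.2
  have h7 := ((ZMod.natCast_eq_natCast_iff _ _ _).1 h6).eq_of_lt_of_lt h3 h3'
  have h8 : r = r' := by
    have := congrArg (· % (q + 1)) h7
    simp only [Nat.add_mul_mod_self_left] at this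
    rwa [Nat.mod_eq_of_lt (by omega), Nat.mod_eq_of_lt (by omega)] at this
  subst h8
  have h9 : c = c' := Nat.eq_of_mul_eq_mul_left (by omega) (Nat.add_left_cancel h7)
  have h10 : t = t' := ZMod.val_injective q (by omega)
  subst h10
  obtain ⟨rfl, rfl⟩ := digits_inj (add_left_cancel e.1)
  rfl

/-- Every common solution has a row of slope different from zero and a row of slope different
from one over the same base point. -/
theorem gadget {B : Set (ZMod (q ^ 2) × ZMod (q ^ 2))}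
    {c : ZMod (q ^ 2) × ZMod (q ^ 2) → ZMod q × ZMod q}
    (h0 : ∀ z, z - (io q (c z).1, io q (c z).2) ∈ B)
    (hc : ∀ φ, ∀ a ∈ B, ∀ a' ∈ B, ∀ u u', a + colT φ u = a' + colT φ u' → u = u')
    (ha : ∀ a ∈ B, ∀ a' ∈ B, ∀ u u', a + antiT u = a' + antiT u' → u = u') :
    ∃ (t : ZMod (q ^ 2)) (σ : Bool → ZMod (q ^ 2)), ∀ b i,
      (c ((t, σ b + io q i) - (1, if b then io q 1 else 0))).2 ≠ (c (t, σ b + io q i)).2 := by
  classical
  obtain ⟨a, hd⟩ : ∃ a : ZMod (q ^ 2) × ZMod (q ^ 2) → ZMod (q ^ 2) × ZMod (q ^ 2),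
    ∀ z, a z = z - (io q (c z).1, io q (c z).2) := ⟨_, fun _ => rfl⟩
  have hB : ∀ z, a z ∈ B := fun z => hd z ▸ h0 z
  have r1 : ∀ z, rr q (a z).1 = rr q z.1 := fun z => by simp [hd, rr_io]
  have r2 : ∀ z, rr q (a z).2 = rr q z.2 := fun z => by simp [hd, rr_io]
  have f1 : ∀ z z', rr q z.1 = rr q z'.1 → (a z).1 = (a z').1 := by
    intro z z' h
    obtain ⟨i, hi⟩ := exists_io ((r1 z).trans (h.trans (r1 z').symm))
    by_contra hne
    have h1 : i ≠ 0 := by
      rintro rfl
      exact hne (by simpa using hi)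
    have := hc (fun j => if j = i then (a z).2 - (a z').2 else 0) _ (hB z') _ (hB z) (i, 0) (0, 0)
      (Prod.ext (by simp [colT, hi]) (by simp [colT, h1.symm]))
    exact h1 (congrArg Prod.fst this)
  have f2 : ∀ z z', rr q z.1 = rr q z'.1 → rr q z.2 = rr q z'.2 → (a z).2 = (a z').2 := by
    intro z z' h h'
    obtain ⟨i, hi⟩ := exists_io ((r2 z).trans (h'.trans (r2 z').symm))
    have := hc (fun _ => 0) _ (hB z') _ (hB z) (0, i) (0, 0)
      (Prod.ext (by simp [colT, f1 z z' h]) (by simp [colT, hi]))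
    simpa [(Prod.mk.inj this).2] using hi
  have f3 : ∀ z z', (a z).1 + (a z).2 = (a z').1 + (a z').2 → rr q z.1 = rr q z'.1 := by
    intro z z' h
    have h1 := lf_add_io ((a z).1 - (a z').1)
    have h2 : lf q 0 = 0 := by simp [lf]
    have := ha _ (hB z') _ (hB z) (rr q ((a z).1 - (a z').1), dg q ((a z).1 - (a z').1)) (0, 0)
      (Prod.ext (by simp only [antiT, h1, h2]; simp) (by
        simp only [antiT, h1, h2, Prod.snd_add, map_zero]
        linear_combination -h))
    have h3 := (Prod.mk.inj this).1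
    rwa [map_sub, r1, r1, sub_eq_zero] at h3
  by_contra hn
  have g1 : ∀ t, ∃ e, ∀ σ, (a (t, σ)).2 = (a (t - 1, σ)).2 + e := by
    intro t
    have h1 : ∀ σ : Bool → ZMod (q ^ 2), ∃ b : Bool,
        (a (t, σ b)).2 = (a (t - 1, σ b)).2 + if b then io q 1 else 0 := by
      intro σ
      by_contra h
      refine hn ⟨t, σ, fun b i e => h ⟨b, ?_⟩⟩
      rw [f2 (t, σ b) (t, σ b + io q i) rfl (by simp [rr_io]),
        f2 (t - 1, σ b) ((t, σ b + io q i) - (1, if b then io q 1 else 0)) rfl (by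
          cases b <;> simp [rr_io]), hd, hd, e]
      simp only [Prod.snd_sub]
      ring
    by_cases h2 : ∀ σ, (a (t, σ)).2 = (a (t - 1, σ)).2 + 0
    · exact ⟨0, h2⟩
    · obtain ⟨σ, h2⟩ := not_forall.1 h2
      refine ⟨io q 1, fun σ' => ?_⟩
      obtain ⟨_ | _, h3⟩ := h1 fun b => if b then σ' else σ
      · exact absurd (by simpa using h3) h2
      · simpa using h3
  have g2 : ∀ n : ℕ, ∃ e, ∀ σ, (a (n, σ)).2 = (a (0, σ)).2 + e := by
    intro n
    induction n with
    | zero => exact ⟨0, by simp⟩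
    | succ n ih =>
      obtain ⟨e, he⟩ := ih
      obtain ⟨e', he'⟩ := g1 ((n + 1 : ℕ) : ZMod (q ^ 2))
      exact ⟨e + e', fun σ => by rw [he', ← add_assoc, ← he]; simp⟩
  choose f hf using g2
  have g3 : ∀ s : ZMod (q ^ 2), q • s + ∑ i, io q i =
      ∑ t : ZMod q, ((a (lf q t, 0)).1 + f t.val) + ∑ σ : ZMod q, (a (0, lf q σ)).2 := by
    intro s
    have h1 : ∀ t : ZMod q, ∃ j, (a (lf q t, s - lf q t)).1 + (a (lf q t, s - lf q t)).2 =
        s + io q j := fun t => exists_io (by rw [map_add, r1, r2]; simp)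
    choose j hj using h1
    have h2 : Function.Injective j := fun t t' e => by
      have := f3 (lf q t, s - lf q t) (lf q t', s - lf q t') (by rw [hj, hj, e])
      simpa only [rr_lf] using this
    rw [← (Finite.injective_iff_bijective.1 h2).sum_comp (fun i => io q i),
      ← (Equiv.subLeft (rr q s)).sum_comp fun σ => (a (0, lf q σ)).2, ← Finset.sum_add_distrib]
    have h3 : q • s = ∑ _t : ZMod q, s := by simp
    rw [h3, ← Finset.sum_add_distrib]
    refine Finset.sum_congr rfl fun t _ => ?_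
    rw [← hj, f1 (lf q t, s - lf q t) (lf q t, 0) rfl, Equiv.subLeft_apply,
      f2 (0, lf q (rr q s - t)) (0, s - lf q t) rfl (by simp [rr_lf])]
    have := hf t.val (s - lf q t)
    rw [lf] at *
    linear_combination this
  have h1 := add_right_cancel ((g3 1).trans (g3 0).symm)
  rw [smul_zero, nsmul_one, ← io_one, ← map_zero (io q)] at h1
  exact one_ne_zero (io_inj h1)

end

end Vale.Agent.P043
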