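import Vale.Agent.P043.Clause
import Vale.Agent.P043.Gadget

/-! The data of the three-dimensional construction and the intended solution. -/

namespace Vale.Agent.P043

/-- Homomorphisms, special elements and the intended states. -/
structure Data (G V : Type) [AddCommGroup G] (q : Option (V × Bool) → ℕ) (p : V → ℕ)
    [∀ k, Fact (1 < q k)] where
  ρ : ∀ k, G →+ ZMod (q k ^ 2) × ZMod (q k ^ 2)
  σ : ∀ v, G →+ ZMod (p v)
  π : ∀ v, G →+ ZMod (p v)
  d : Option (V × Bool) → G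
  r : Option (V × Bool) → G
  e : Option (V × Bool) → G
  f : V → G
  w : V → G
  l : G
  star : V
  col : V → ℤ
  b : G → V → Bool
  ρd : ∀ k, ρ k (d k) = (1, 0)
  ρr : ∀ k, ρ k (r k) = (0, 1)
  ρe : ∀ k, ρ k (e k) = (0, io (q k) 1)
  ρd' : ∀ k k', k ≠ k' → ρ k (d k') = 0
  ρr' : ∀ k k', k ≠ k' → ρ k (r k') = 0
  ρe' : ∀ k k', k ≠ k' → ρ k (e k') = 0
  ρf : ∀ k v, ρ k (f v) = 0
  ρw : ∀ k v, ρ k (w v) = 0
  ρl : ∀ k, ρ k l = 0
  σd : ∀ v k, σ v (d k) = 0
  σr : ∀ v k, σ v (r k) = 0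
  σe : ∀ v k, σ v (e k) = 0
  σf : ∀ v, σ v (f v) = 1
  σf' : ∀ v v', v ≠ v' → σ v (f v') = 0
  σw : ∀ v v', σ v (w v') = 0
  σl : ∀ v, σ v l = 0
  πd : ∀ v k, π v (d k) = 0
  πr : ∀ v k, π v (r k) = 0
  πe : ∀ v k, π v (e k) = 0
  πf : ∀ v v', π v (f v') = 0
  πw : ∀ v, π v (w v) = 1
  πw' : ∀ v v', v ≠ v' → π v (w v') = 0
  πl : ∀ v, π v l = 0
  be : ∀ k g, b (g - e k) = b g
  bf : ∀ v g, b (g - f v) = b g
  br : ∀ a g, b (g - r (some a)) = b g
  bd : ∀ v β g, b (g - d (some (v, β))) v = b g v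
  bd0 : ∀ g, b (g - d none) star = b g star
  bl : ∀ v, v ≠ star → ∀ g, b (g - (r none - col v • l)) v = b g v
  bstar : ∀ g, b g star = decide (rr (q none) (ρ none g).2 = 0)

/-- The index set of the tiles. -/
abbrev Idx {V : Type} (q : Option (V × Bool) → ℕ) (p : V → ℕ) : Type :=
  (∀ k, ZMod (q k) × ZMod (q k)) × ∀ v, ZMod (p v)

namespace Data

variable {G V : Type} [AddCommGroup G] {q : Option (V × Bool) → ℕ} {p : V → ℕ}
  [∀ k, Fact (1 < q k)] (D : Data G V q p)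

/-- The elements that do not change the state of `v`. -/
def inv (v : V) : AddSubgroup G where
  carrier := {m | ∀ g, D.b (g - m) v = D.b g v}
  zero_mem' := by simp
  add_mem' := fun {m m'} h h' g => by rw [← sub_sub, h', h]
  neg_mem' := fun {m} h g => by rw [← h]; simp

theorem e_inv (k v) : D.e k ∈ D.inv v := fun g => congrFun (D.be k g) v
theorem f_inv (v' v) : D.f v' ∈ D.inv v := fun g => congrFun (D.bf v' g) v
theorem r_inv (a v) : D.r (some a) ∈ D.inv v := fun g => congrFun (D.br a g) v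

/-- The row of `g` in the gadget `k` is the special one. -/
def row (k : Option (V × Bool)) (g : G) : Prop := rr (q k) (D.ρ k g).2 = 0

theorem row_sub {k : Option (V × Bool)} {m : G} (h : D.row k m) (g : G) :
    D.row k (g - m) ↔ D.row k g := by
  unfold row at *
  rw [map_sub, Prod.snd_sub, map_sub, h, sub_zero]

open Classical in
/-- The intended values. -/
noncomputable def val (v : V) (β : Bool) (g : G) : ZMod (p v) :=
  if D.row (some (v, β)) g then D.π v g else 0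

theorem val_sub {v : V} {β : Bool} {m : G} (h : D.row (some (v, β)) m) (h' : D.π v m = 0) (g : G) :
    D.val v β (g - m) = D.val v β g := by
  unfold val
  rw [map_sub, h', sub_zero, D.row_sub h g]

/-- The intended solution. -/
def sol : Set G := {g | (∀ k, D.ρ k g ∈ gB (q k)) ∧ ∀ v, D.σ v g = D.val v (D.b g v) g}

/-- The part of the base tile that belongs to the gadget `k`. -/
def tq (k : Option (V × Bool)) (u : ZMod (q k) × ZMod (q k)) : G :=
  u.1.val • q k • D.d k + u.2.val • D.e k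

theorem ρ_tq (k u) : D.ρ k (D.tq k u) = (io (q k) u.1, io (q k) u.2) := by
  simp only [tq, map_add, map_nsmul, D.ρd, D.ρe]
  rw [io_one, ← val_nsmul_io, ← val_nsmul_io]
  simp

theorem ρ_tq' {k k'} (h : k ≠ k') (u) : D.ρ k (D.tq k' u) = 0 := by
  simp [tq, D.ρd' _ _ h, D.ρe' _ _ h]

theorem tq_zero (k) : D.tq k 0 = 0 := by simp [tq]

/-- A section of `ρ k`. -/
def sec (k : Option (V × Bool)) (z : ZMod (q k ^ 2) × ZMod (q k ^ 2)) : G :=
  z.1.val • D.d k + z.2.val • D.r k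

theorem ρ_sec (k z) : D.ρ k (D.sec k z) = z := by
  simp [sec, D.ρd, D.ρr]

theorem ρ_sec' {k k'} (h : k ≠ k') (z) : D.ρ k (D.sec k' z) = 0 := by
  simp [sec, D.ρd' _ _ h, D.ρr' _ _ h]

/-- The two detecting shifts. -/
def dd (k : Option (V × Bool)) (β : Bool) : G := D.d k + if β then D.e k else 0

theorem ρ_dd (k β) : D.ρ k (D.dd k β) = (1, if β then io (q k) 1 else 0) := by
  cases β <;> simp [dd, D.ρd, D.ρe]

theorem ρ_dd' {k k'} (h : k ≠ k') (β) : D.ρ k (D.dd k' β) = 0 := by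
  cases β <;> simp [dd, D.ρd' _ _ h, D.ρe' _ _ h]

variable [Fintype V] [∀ v, Fact (1 < p v)]

/-- A tile assembled from one lifted tile for every gadget. -/
def tile (s : ∀ k, ZMod (q k) × ZMod (q k) → G) (u : Idx q p) : G :=
  ∑ k, s k (u.1 k) + ∑ v, (u.2 v).val • D.f v

omit [∀ v, Fact (1 < p v)] in
theorem ρ_tile {s : ∀ k, ZMod (q k) × ZMod (q k) → G}
    (hs : ∀ k k', k ≠ k' → ∀ u, D.ρ k (s k' u) = 0) (k) (u : Idx q p) :
    D.ρ k (D.tile s u) = D.ρ k (s k (u.1 k)) := by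
  simp only [tile, map_add, map_sum, map_nsmul, D.ρf, smul_zero, Finset.sum_const_zero, add_zero]
  exact Finset.sum_eq_single k (fun k' _ h => hs _ _ h.symm _) (by simp)

theorem mem_tile {s : ∀ k, ZMod (q k) × ZMod (q k) → G}
    (hs : ∀ k k', k ≠ k' → ∀ u, D.ρ k (s k' u) = 0) (g : G) (c : ∀ k, ZMod (q k) × ZMod (q k))
    (hc : ∀ k u, D.ρ k g - D.ρ k (s k u) ∈ gB (q k) ↔ u = c k) (u : Idx q p) :
    g - D.tile s u ∈ D.sol ↔ u = (c, fun v => D.σ v (g - ∑ k, s k (c k)) -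
      D.val v (D.b (g - ∑ k, s k (c k)) v) (g - ∑ k, s k (c k))) := by
  obtain ⟨x, y⟩ := u
  simp only [sol, Set.mem_ofPred_eq, map_sub (D.ρ _), D.ρ_tile hs, hc, Prod.mk.injEq, ← funext_iff]
  refine and_congr_right ?_
  rintro rfl
  rw [funext_iff, funext_iff]
  refine forall_congr' fun v => ?_
  have h1 : D.σ v (∑ v, (y v).val • D.f v) = y v := by
    rw [map_sum, Finset.sum_eq_single v (fun v' _ h => by simp [D.σf' _ _ h.symm]) (by simp)]
    simp [D.σf]
  have h2 : ∑ v, (y v).val • D.f v ∈ D.inv v :=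
    sum_mem fun v' _ => nsmul_mem (D.f_inv v' v) _
  rw [tile, ← sub_sub, map_sub, h1, h2, D.val_sub (by simp [row, D.ρf]) (by simp [D.πf])]
  exact ⟨fun h => by rw [← h]; abel, fun h => by rw [h]; abel⟩

theorem til_tile {s : ∀ k, ZMod (q k) × ZMod (q k) → G}
    (hs : ∀ k k', k ≠ k' → ∀ u, D.ρ k (s k' u) = 0)
    (ht : ∀ k, Til (gB (q k)) fun u => D.ρ k (s k u)) : Til D.sol (D.tile s) := by
  choose c hc using fun k => (ht k).coord
  refine til_iff.2 fun g => ?_
  simp only [D.mem_tile hs g (fun k => c k (D.ρ k g)) fun k u => hc k _ u]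
  exact existsUnique_eq

/-- The base point. -/
def base (g : G) : G := g - ∑ k, D.tq k (tb (D.ρ k g))

/-- The coordinates of the intended solution. -/
noncomputable def crd (g : G) : Idx q p :=
  (fun k => tb (D.ρ k g), fun v => D.σ v g - D.val v (D.b (D.base g) v) g)

theorem crd_spec (g : G) (u : Idx q p) : g - D.tile D.tq u ∈ D.sol ↔ u = D.crd g := by
  rw [D.mem_tile (fun k k' h => D.ρ_tq' h) g (fun k => tb (D.ρ k g)) fun k u => by
    rw [D.ρ_tq, tb_spec]]
  have h : ∀ v β, D.val v β (g - ∑ k, D.tq k (tb (D.ρ k g))) = D.val v β g := fun v β => by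
    refine D.val_sub ?_ (by simp [tq, D.πd, D.πe]) g
    rw [row, map_sum, Finset.sum_eq_single (some (v, β)) (fun k _ h => D.ρ_tq' h.symm _) (by simp),
      D.ρ_tq, rr_io]
  have h' : ∀ v, D.σ v (g - ∑ k, D.tq k (tb (D.ρ k g))) = D.σ v g := fun v => by
    simp [tq, D.σd, D.σe]
  simp only [h, h', crd, base]

omit [∀ v, Fact (1 < p v)] in
theorem b_base {v : V} {m : G} (h : m ∈ D.inv v) (h' : ∀ k, (D.ρ k m).1 = 0 ∨ D.d k ∈ D.inv v)
    (g : G) : D.b (D.base (g - m)) v = D.b (D.base g) v := by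
  have h1 : m + ∑ k, (D.tq k (tb (D.ρ k (g - m))) - D.tq k (tb (D.ρ k g))) ∈ D.inv v := by
    refine add_mem h (sum_mem fun k _ => ?_)
    rcases h' k with h2 | h2
    · have : (tb (D.ρ k (g - m))).1 = (tb (D.ρ k g)).1 := by simp [tb, h2]
      rw [tq, tq, this, add_sub_add_left_eq_sub]
      exact sub_mem (nsmul_mem (D.e_inv k v) _) (nsmul_mem (D.e_inv k v) _)
    · have : ∀ u, D.tq k u ∈ D.inv v := fun u =>
        add_mem (nsmul_mem (nsmul_mem h2 _) _) (nsmul_mem (D.e_inv k v) _)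
      exact sub_mem (this _) (this _)
  rw [← h1 (D.base g), base, base, Finset.sum_sub_distrib]
  congr 1
  abel

omit [∀ v, Fact (1 < p v)] in
theorem crd_sub {v : V} {m : G} (h : m ∈ D.inv v) (h' : ∀ k, (D.ρ k m).1 = 0 ∨ D.d k ∈ D.inv v)
    (h1 : D.σ v m = 0) (h2 : D.π v m = 0) (g : G)
    (h3 : D.row (some (v, D.b (D.base g) v)) m) : (D.crd (g - m)).2 v = (D.crd g).2 v := by
  simp only [crd, D.b_base h h', map_sub, h1, sub_zero, D.val_sub h3 h2]

omit [∀ v, Fact (1 < p v)] in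
theorem crd_r {v v' : V} {β : Bool} (g : G) (h : (v, D.b (D.base g) v) ≠ (v', β)) :
    (D.crd (g - D.r (some (v', β)))).2 v = (D.crd g).2 v := by
  refine D.crd_sub (D.r_inv _ _) (fun k => Or.inl ?_) (D.σr _ _) (D.πr _ _) g ?_
  · by_cases hk : k = some (v', β)
    · subst hk
      rw [D.ρr]
    · rw [D.ρr' _ _ hk]
      rfl
  · rw [row, D.ρr' _ _ (by simpa using h)]
    simp

omit [∀ v, Fact (1 < p v)] in
theorem crd_dd {v : V} {k : Option (V × Bool)} (hk : D.d k ∈ D.inv v) (β : Bool) (g : G) :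
    (D.crd (g - D.dd k β)).2 v = (D.crd g).2 v := by
  have h0 : D.dd k β ∈ D.inv v := by
    refine add_mem hk ?_
    split_ifs
    exacts [D.e_inv _ _, zero_mem _]
  refine D.crd_sub h0 (fun k' => ?_) ?_ ?_ g ?_
  · by_cases h : k' = k
    · exact Or.inr (h ▸ hk)
    · exact Or.inl (by rw [D.ρ_dd' h]; rfl)
  · cases β <;> simp [dd, D.σd, D.σe]
  · cases β <;> simp [dd, D.πd, D.πe]
  · generalize D.b (D.base g) v = γ
    by_cases h : some (v, γ) = k
    · subst h
      rw [row, D.ρ_dd]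
      cases β <;> simp [rr_io]
    · rw [row, D.ρ_dd' h]
      simp

omit [∀ v, Fact (1 < p v)] in
theorem crd_eta (k β g) (h1 : D.row k g ↔ β = true) : ((D.crd (g - D.dd k β)).1 k).2 = ((D.crd g).1 k).2 := by
  simp only [crd, map_sub, D.ρ_dd]
  refine tb_shift _ β ?_
  cases β
  · simpa [row] using h1
  · simpa [row] using h1

omit [∀ v, Fact (1 < p v)] in
theorem row_base (k g) : D.row k (D.base g) ↔ D.row k g := by
  refine D.row_sub ?_ g
  rw [row, map_sum, Finset.sum_eq_single k (fun k _ h => D.ρ_tq' h.symm _) (by simp),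
    D.ρ_tq, rr_io]

end Data

end Vale.Agent.P043
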