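import Vale.Agent.P043.Data

/-! From the properties of a general solution to the Sudoku. -/

namespace Vale.Agent.P043

namespace Data

variable {G V : Type} [AddCommGroup G] {q : Option (V × Bool) → ℕ} {p : V → ℕ}
  [∀ k, Fact (1 < q k)] (D : Data G V q p)

/-- The direction of propagation of the variable `v`. -/
def lam (v : V) : G := D.r none - D.col v • D.l

/-- The elements that preserve a tied coordinate. -/
def K (v : V) (β : Bool) : AddSubgroup G :=
  (D.ρ (some (v, false))).ker ⊓ (D.ρ (some (v, true))).ker ⊓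
    (D.σ v - if β then 0 else D.π v).ker

/-- The gadget coordinate feels the detecting shift. -/
def Sens (u : G → Idx q p) (k : Option (V × Bool)) (β : Bool) (g : G) : Prop :=
  ((u (g - D.dd k β)).1 k).2 ≠ ((u g).1 k).2

/-- The properties of the coordinates of a general solution. -/
structure Facts (u : G → Idx q p) : Prop where
  f2 : ∀ k, ∃ (t : ZMod (q k ^ 2)) (s : Bool → ZMod (q k ^ 2)), ∀ β i g,
    D.ρ k g = (t, s β + io (q k) i) → D.Sens u k β g
  f3 : ∀ v v' β, v ≠ v' → ∀ g, (u (g - D.r (some (v', β)))).2 v = (u g).2 v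
  f3' : ∀ v, v ≠ D.star → ∀ g, (u (g - D.lam v)).2 v = (u g).2 v
  f4 : ∀ v g, (u (g - D.f v)).2 v = (u g).2 v - 1
  f5 : ∀ v β, ∀ m ∈ D.K v β, ∀ g, (∀ β', D.Sens u (some (v, β')) β g) →
    (u (g - m)).2 v = (u g).2 v
  f6 : ∀ γ, γ ∉ Set.range D.b → ∀ g, ∃ v, (u (g - D.r (some (v, γ v)))).2 v = (u g).2 v
  f7 : ∀ β g, D.Sens u none β g → (u (g - D.r (some (D.star, β)))).2 D.star = (u g).2 D.star

/-- The encoded Sudoku has no periodic solution. -/
def Sud : Prop :=
  ∀ β : ℤ × ℤ → V → Bool, (∀ x, ∃ g, β x = D.b g) →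
    (∀ x v, v ≠ D.star → β (x - (1, -D.col v)) v = β x v) →
    β (1, 0) D.star ≠ β (0, 0) D.star → ∀ N : ℕ, 0 < N → ¬ ∀ x y, β (x + N • y) = β x

/-- Moving along the rows of the two gadgets of `v`. -/
def sh (v : V) (g : G) (a b : ℕ) : G := g + a • D.r (some (v, false)) + b • D.r (some (v, true))

/-- Insensitivity along the whole orbit. -/
def Ins (u : G → Idx q p) (v : V) (β : Bool) (g : G) : Prop :=
  ∀ a b : ℕ, (u (D.sh v g a b - D.r (some (v, β)))).2 v = (u (D.sh v g a b)).2 v

theorem ρ_sh (v g) (a b : ℕ) (β : Bool) : D.ρ (some (v, β)) (D.sh v g a b) =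
    D.ρ (some (v, β)) g + (0, ((if β then b else a : ℕ) : ZMod (q (some (v, β)) ^ 2))) := by
  cases β <;> simp [sh, D.ρr, D.ρr']

theorem ρ_sh' (v g a b) : D.ρ none (D.sh v g a b) = D.ρ none g := by simp [sh, D.ρr']

variable {D} {u : G → Idx q p}

theorem Ins.const {v g} (h : D.Ins u v false g) (h' : D.Ins u v true g) (a b : ℕ) :
    (u (D.sh v g a b)).2 v = (u g).2 v := by
  induction b with
  | zero =>
    induction a with
    | zero => simp [sh]
    | succ a ih =>
      rw [← h, ← ih]
      simp [sh, succ_nsmul, ← add_assoc]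
  | succ b ih =>
    rw [← h', ← ih]
    simp [sh, succ_nsmul, ← add_assoc]

theorem Ins.congr {v β g m} (hm : ∀ g, (u (g - m)).2 v = (u g).2 v) :
    D.Ins u v β (g - m) ↔ D.Ins u v β g := by
  refine forall₂_congr fun a b => ?_
  have h : D.sh v (g - m) a b = D.sh v g a b - m := by
    simp only [sh]
    abel
  rw [h, sub_right_comm, hm, hm]

variable [∀ v, Fact (1 < p v)]

theorem Facts.tie (F : D.Facts u) {v β g m} (h : ∀ β', D.Sens u (some (v, β')) β g)
    (hm : ∀ β', D.ρ (some (v, β')) m = 0) :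
    (u (g - m)).2 v = (u g).2 v - (D.σ v m - if β then 0 else D.π v m) := by
  have h1 : ∀ (n : ℕ) g, (u (g - n • D.f v)).2 v = (u g).2 v - n := by
    intro n
    induction n with
    | zero => simp
    | succ n ih =>
      intro g
      rw [succ_nsmul, ← sub_sub, F.f4, ih]
      push_cast
      ring
  obtain ⟨n, hn⟩ : ∃ n : ℕ, (D.σ v m - if β then 0 else D.π v m) = n :=
    ⟨_, (ZMod.natCast_zmod_val _).symm⟩
  have h2 : m - n • D.f v ∈ D.K v β := by
    refine ⟨⟨?_, ?_⟩, ?_⟩
    · simp [hm, D.ρf]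
    · simp [hm, D.ρf]
    · cases β
      · simp [D.σf, D.πf, ← hn]
      · simp [D.σf, ← hn]
  rw [hn, ← F.f5 v β _ h2 g h, ← h1, sub_sub, sub_add_cancel]

omit [∀ v, Fact (1 < p v)] in
theorem Facts.state [Fintype V] (F : D.Facts u) (g : G) (γ : V → Bool)
    (h : ∀ v, ¬ D.Ins u v (γ v) g) : ∃ g', γ = D.b g' := by
  classical
  by_contra hn
  simp only [Ins, not_forall] at h
  choose a b h using h
  obtain ⟨v, hv⟩ := F.f6 γ (fun ⟨g', e⟩ => hn ⟨g', e.symm⟩)
    (g + ∑ v, (a v • D.r (some (v, false)) + b v • D.r (some (v, true))))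
  let I : AddSubgroup G :=
    { carrier := {m | ∀ g, (u (g - m)).2 v = (u g).2 v}
      zero_mem' := by simp
      add_mem' := fun {m m'} h h' g => by rw [← sub_sub, h', h]
      neg_mem' := fun {m} h g => by rw [← h]; simp }
  have h1 : ∑ v' ∈ Finset.univ.erase v,
      (a v' • D.r (some (v', false)) + b v' • D.r (some (v', true))) ∈ I :=
    sum_mem fun v' hv' => add_mem
      (I.nsmul_mem (F.f3 v v' false (Finset.ne_of_mem_erase hv').symm) _)
      (I.nsmul_mem (F.f3 v v' true (Finset.ne_of_mem_erase hv').symm) _)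
  apply h v
  rw [← h1, ← h1 (_ + _), ← Finset.add_sum_erase _ _ (Finset.mem_univ v), sub_right_comm,
    ← add_assoc, add_sub_cancel_right, ← add_assoc] at hv
  exact hv

theorem Facts.deduce [Fintype V] (F : D.Facts u) (h2 : q none = 2) (hS : D.Sud) (N : ℕ)
    (hN : 0 < N) : ¬ ∀ g g', u (g + N • g') = u g := by
  classical
  intro hp
  choose t s hs using F.f2
  obtain ⟨δ, hδ⟩ : ∃ δ : ∀ v, G → ZMod (p v), ∀ v g, δ v g =
      (u (D.sh v g (s (some (v, false)) false).val (s (some (v, true)) false).val)).2 v -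
      (u (D.sh v g (s (some (v, false)) true).val (s (some (v, true)) true).val)).2 v :=
    ⟨_, fun _ _ => rfl⟩
  have a1 : ∀ v g m, (∀ β, D.ρ (some (v, β)) g = (t _, 0)) → (∀ β, D.ρ (some (v, β)) m = 0) →
      δ v (g - m) = δ v g + D.π v m := by
    intro v g m hg hm
    have h : ∀ a b, D.sh v (g - m) a b = D.sh v g a b - m := fun a b => by
      simp only [sh]
      abel
    have h1 : ∀ β β', D.Sens u (some (v, β')) β
        (D.sh v g (s (some (v, false)) β).val (s (some (v, true)) β).val) := fun β β' =>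
      hs _ _ 0 _ (by rw [ρ_sh, hg]; cases β' <;> simp)
    rw [hδ, hδ, h, h, F.tie (h1 false) hm, F.tie (h1 true) hm]
    simp only [Bool.false_eq_true, if_false, if_true]
    ring
  obtain ⟨g₀, h0⟩ : ∃ g₀, ∀ k, D.ρ k g₀ = (t k, if k = none then s k false else 0) := by
    refine ⟨∑ k, D.sec k (t k, if k = none then s k false else 0), fun k => ?_⟩
    rw [map_sum, Finset.sum_eq_single k (fun k' _ h => D.ρ_sec' h.symm _) (by simp), ρ_sec]
  obtain ⟨P, hP⟩ : ∃ P : ℤ × ℤ → G, ∀ x, P x =
      g₀ - (∑ v, (if δ v g₀ = 0 then D.w v else 0) - (x.1 • D.r none + x.2 • D.l)) :=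
    ⟨_, fun _ => rfl⟩
  have a2 : ∀ k, D.ρ k (∑ v, if δ v g₀ = 0 then D.w v else 0) = 0 := fun k => by
    rw [map_sum]
    refine Finset.sum_eq_zero fun v _ => ?_
    split_ifs
    exacts [D.ρw _ _, map_zero _]
  have a3 : ∀ x v, ¬ (D.Ins u v false (P x) ∧ D.Ins u v true (P x)) := by
    rintro x v ⟨h, h'⟩
    have h1 : δ v (P x) = 0 := by rw [hδ, h.const h', h.const h', sub_self]
    have h3 : D.π v (∑ v, if δ v g₀ = 0 then D.w v else 0) = if δ v g₀ = 0 then 1 else 0 := by
      rw [map_sum, Finset.sum_eq_single v (fun v' _ h => by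
        split_ifs
        exacts [D.πw' _ _ h.symm, map_zero _]) (by simp)]
      split_ifs
      exacts [D.πw _, map_zero _]
    rw [hP, a1 v g₀ _ (fun β => by simp [h0]) (fun β => by simp [a2, D.ρr', D.ρl]), map_sub, h3]
      at h1
    simp only [map_add, map_zsmul, D.πr, D.πl, smul_zero, add_zero, sub_zero] at h1
    split_ifs at h1 with h4
    · simp [h4] at h1
    · exact h4 (by simpa using h1)
  have a4 : ∀ x β i, s none false + (x.1 : ℤ) = s none β + io (q none) i →
      D.Ins u D.star β (P x) := by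
    intro x β i h a b
    refine F.f7 β _ (hs _ _ i _ ?_)
    rw [ρ_sh', hP, ← h]
    simp [a2, h0, D.ρr, D.ρl]
  refine hS (fun x v => decide (D.Ins u v false (P x))) (fun x => F.state (P x) _ fun v => ?_)
    (fun x v hv => ?_) ?_ N hN fun x y => ?_
  · by_cases h : D.Ins u v false (P x)
    · simpa [h] using a3 x v
    · simp [h]
  · have : P (x - (1, -D.col v)) = P x - D.lam v := by
      simp only [hP, lam, Prod.fst_sub, Prod.snd_sub, sub_smul, one_smul, neg_smul]
      abel
    simp only [this, Ins.congr (F.f3' v hv)]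
  · have h3 := a4 (0, 0) false 0 (by simp)
    have h4 : ∀ y z : ZMod (q none), y = z ∨ y + 1 = z := by
      rw [h2]
      decide
    rcases h4 (rr _ (s none false)) (rr _ (s none true)) with h | h
    · obtain ⟨i, hi⟩ := exists_io h
      exact absurd ⟨h3, a4 (0, 0) true i (by simpa using hi)⟩ (a3 _ _)
    · obtain ⟨i, hi⟩ := exists_io (e := s none false + 1) (by simpa using h)
      have h5 := a4 (1, 0) true i (by simpa using hi)
      simpa [h3] using fun h => a3 _ _ ⟨h, h5⟩
  · funext v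
    have : P (x + N • y) = P x - -(N • (y.1 • D.r none + y.2 • D.l)) := by
      simp only [hP, Prod.fst_add, Prod.snd_add, Prod.smul_fst, Prod.smul_snd, add_smul, smul_add,
        smul_assoc]
      abel
    have h : ∀ g, (u (g - -(N • (y.1 • D.r none + y.2 • D.l)))).2 v = (u g).2 v := fun g => by
      rw [sub_neg_eq_add, hp]
    simp only [this, Ins.congr h]

end Data

end Vale.Agent.P043
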