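import Mathlib

/-! Translational tilings of abelian groups and of Euclidean space. -/

namespace Vale.Agent.P043

open MeasureTheory

/-- `A ⊕ F = G`: every element of `G` is uniquely `a + f` with `a ∈ A`, `f ∈ F`. -/
def IsTiling {G : Type} [AddCommGroup G] (A : Set G) (F : Finset G) : Prop :=
  ∀ g : G, ∃! p : G × G, p.1 ∈ A ∧ p.2 ∈ F ∧ p.1 + p.2 = g

/-- `A + h = A` for every `h` in some subgroup of finite index. -/
def IsPeriodic {G : Type} [AddCommGroup G] (A : Set G) : Prop :=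
  ∃ H : AddSubgroup G, H.FiniteIndex ∧ ∀ h ∈ H, (fun a => a + h) '' A = A

/-- The translates `Ω + a`, `a ∈ A`, cover `ℝ^d` up to a null set and pairwise intersect in
null sets. -/
def IsRealTiling {d : ℕ} (A Ω : Set (Fin d → ℝ)) : Prop :=
  volume (⋃ a ∈ A, (fun x => x + a) '' Ω)ᶜ = 0 ∧
    ∀ a ∈ A, ∀ b ∈ A, a ≠ b → volume ((fun x => x + a) '' Ω ∩ (fun x => x + b) '' Ω) = 0

/-- `A` is invariant under a lattice of rank `d`: the integer span of a basis of `ℝ^d`. -/
def IsRealPeriodic {d : ℕ} (A : Set (Fin d → ℝ)) : Prop :=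
  ∃ b : Module.Basis (Fin d) ℝ (Fin d → ℝ),
    ∀ h ∈ Submodule.span ℤ (Set.range b), (fun a => a + h) '' A = A

end Vale.Agent.P043
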