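import Mathlib
import Vale.Agent.P043.Defs

/-! A density comparison for periodic families of unit cubes. -/

namespace Vale.Agent.P043

open MeasureTheory

/-- The union of the half-open unit cubes with corners `a + w`, `a ∈ A`. -/
def cell {d : ℕ} (A : Set (Fin d → ℝ)) (w : Fin d → ℤ) : Set (Fin d → ℝ) :=
  {x | ∃ a ∈ A, ∀ k, ⌊x k - a k⌋ = w k}

theorem measurableSet_cell {d : ℕ} {A : Set (Fin d → ℝ)} (hc : A.Countable) (w : Fin d → ℤ) :
    MeasurableSet (cell A w) := by
  have : cell A w = ⋃ a ∈ A, ⋂ k, (fun x : Fin d → ℝ => ⌊x k - a k⌋) ⁻¹' {w k} := by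
    ext x; simp [cell]
  rw [this]
  refine MeasurableSet.biUnion hc fun a _ => MeasurableSet.iInter fun k => ?_
  exact (Int.measurable_floor.comp ((measurable_pi_apply k).sub_const _)) (measurableSet_singleton _)

theorem dens {d : ℕ} {J : Type} [Countable J] (z z' : J → Fin d → ℤ) {A : Set (Fin d → ℝ)}
    (hc : A.Countable) (hp : IsRealPeriodic A) (hcov : volume (⋃ j, cell A (z j))ᶜ = 0)
    (hdis : Pairwise (Function.onFun Disjoint fun j => cell A (z' j))) :
    volume (⋃ j, cell A (z' j))ᶜ = 0 := by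
  obtain ⟨b, hb⟩ := hp
  have hD := ZSpan.isAddFundamentalDomain' b volume
  have hDm := ZSpan.fundamentalDomain_measurableSet b
  have hDf := (ZSpan.fundamentalDomain_isBounded b).measure_lt_top (μ := volume)
  generalize ZSpan.fundamentalDomain b = D at hD hDm hDf
  have : Countable (Submodule.span ℤ (Set.range b)).toAddSubgroup :=
    inferInstanceAs (Countable (Submodule.span ℤ (Set.range b)))
  have hA : ∀ h ∈ Submodule.span ℤ (Set.range b), ∀ a ∈ A, a + h ∈ A := fun h hh a ha =>
    hb h hh ▸ Set.mem_image_of_mem (fun a => a + h) ha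
  have hI : ∀ w (g : (Submodule.span ℤ (Set.range b)).toAddSubgroup),
      (fun x => g +ᵥ x) ⁻¹' cell A w = cell A w := by
    intro w g
    ext x
    constructor
    · rintro ⟨a, ha, h⟩
      refine ⟨a + -g.1, hA _ (neg_mem g.2) a ha, fun k => ?_⟩
      rw [← h k]
      congr 1
      change x k - (a k + -g.1 k) = g.1 k + x k - a k
      ring
    · rintro ⟨a, ha, h⟩
      refine ⟨a + g.1, hA _ g.2 a ha, fun k => ?_⟩
      rw [← h k]
      congr 1
      change g.1 k + x k - (a k + g.1 k) = x k - a k
      ring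
  have hρ : ∀ w, volume (cell A w ∩ D) = volume (cell A 0 ∩ D) := by
    intro w
    rw [hD.measure_set_eq (hD.vadd_of_comm (fun k => (w k : ℝ))) (measurableSet_cell hc w) (hI w),
      ← measure_preimage_vadd volume (fun k => (w k : ℝ))]
    congr 1
    ext x
    simp only [Set.mem_preimage, Set.mem_inter_iff, Set.vadd_mem_vadd_set_iff]
    refine and_congr_left fun _ => exists_congr fun a => and_congr_right fun _ =>
      forall_congr' fun k => ?_
    change ⌊(w k : ℝ) + x k - a k⌋ = w k ↔ ⌊x k - a k⌋ = 0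
    rw [add_sub_assoc, Int.floor_intCast_add]
    simp
  have hU : MeasurableSet (⋃ j, cell A (z' j)) :=
    MeasurableSet.iUnion fun j => measurableSet_cell hc _
  have h1 : volume D ≤ volume ((⋃ j, cell A (z' j)) ∩ D) := by
    calc volume D ≤ volume ((⋃ j, cell A (z j)) ∩ D ∪ (⋃ j, cell A (z j))ᶜ) :=
          measure_mono fun x hx => (em _).imp (fun h => ⟨h, hx⟩) id
      _ ≤ volume ((⋃ j, cell A (z j)) ∩ D) + volume (⋃ j, cell A (z j))ᶜ := measure_union_le _ _
      _ = volume (⋃ j, cell A (z j) ∩ D) := by rw [hcov, add_zero, Set.iUnion_inter]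
      _ ≤ ∑' j, volume (cell A (z j) ∩ D) := measure_iUnion_le _
      _ = ∑' j, volume (cell A (z' j) ∩ D) := by simp only [hρ]
      _ = volume (⋃ j, cell A (z' j) ∩ D) := by
          refine (measure_iUnion (fun j j' h => ?_) fun j => (measurableSet_cell hc _).inter hDm).symm
          exact (hdis h).mono Set.inter_subset_left Set.inter_subset_left
      _ = _ := by rw [Set.iUnion_inter]
  refine hD.measure_zero_of_invariant _ (fun g => ?_) ?_
  · ext x
    rw [Set.mem_vadd_set_iff_neg_vadd_mem]
    simp only [Set.mem_compl_iff, Set.mem_iUnion]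
    exact not_congr (exists_congr fun j => Set.ext_iff.1 (hI (z' j) (-g)) x)
  · have h2 := measure_inter_add_sdiff (μ := volume) D hU
    rw [Set.inter_comm] at h2
    rw [Set.inter_comm, ← Set.sdiff_eq]
    by_contra h3
    have h4 := ENNReal.lt_add_right (((measure_mono Set.inter_subset_right).trans_lt hDf).ne :
      volume ((⋃ j, cell A (z' j)) ∩ D) ≠ ⊤) h3
    rw [h2] at h4
    exact h4.not_ge h1

end Vale.Agent.P043
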