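import Mathlib

/-! Systems of tiling equations that encode boolean constraints. -/

namespace Vale.Agent.P043

/-- Tiling by an indexed tile. -/
def Til {G U : Type} [AddCommGroup G] (A : Set G) (f : U → G) : Prop :=
  (∀ g, ∃ a ∈ A, ∃ u, a + f u = g) ∧ ∀ a ∈ A, ∀ a' ∈ A, ∀ u u', a + f u = a' + f u' → u = u'

/-- There is a finite system of tiling equations with a solution but no periodic solution. -/
def Aper (G : Type) [AddCommGroup G] : Prop :=
  ∃ (U : Type) (_ : Finite U) (W : Finset G) (A₀ : Set G),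
    (∃ f : U → G, (∀ u, f u ∈ W) ∧ Til A₀ f) ∧
    ∀ A : Set G, (∀ f : U → G, (∀ u, f u ∈ W) → Til A₀ f → Til A f) →
      ∀ N : ℕ, 0 < N → ¬ ∀ g, ∀ a ∈ A, a + N • g ∈ A

theorem Til.of_inj {G U : Type} [AddCommGroup G] [Finite G] [Finite U] {S : Set G} {t g : U → G}
    (h : Til S t) (hg : ∀ a ∈ S, ∀ a' ∈ S, ∀ u u', a + g u = a' + g u' → u = u') : Til S g := by
  refine ⟨fun y => ?_, hg⟩
  have inj : ∀ f : U → G, (∀ a ∈ S, ∀ a' ∈ S, ∀ u u', a + f u = a' + f u' → u = u') →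
      Function.Injective fun p : S × U => p.1.1 + f p.2 := by
    rintro f hf ⟨⟨a, ha⟩, u⟩ ⟨⟨a', ha'⟩, u'⟩ e
    obtain rfl := hf a ha a' ha' u u' e
    obtain rfl : a = a' := add_right_cancel e
    rfl
  have b1 : Function.Bijective fun p : S × U => p.1.1 + t p.2 := ⟨inj t h.2, fun y => by
    obtain ⟨a, ha, u, e⟩ := h.1 y
    exact ⟨⟨⟨a, ha⟩, u⟩, e⟩⟩
  obtain ⟨⟨⟨a, ha⟩, u⟩, e⟩ := (inj g hg).surjective_of_finite (Equiv.ofBijective _ b1) y
  exact ⟨a, ha, u, e⟩

theorem Til.eq_of_subset {G U : Type} [AddCommGroup G] {A B : Set G} {t : U → G}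
    (hA : Til A t) (hB : Til B t) (h : A ⊆ B) : A = B := by
  refine h.antisymm fun b hb => ?_
  obtain ⟨-, -, u, -⟩ := hA.1 0
  obtain ⟨a, ha, u', e⟩ := hA.1 (b + t u)
  obtain rfl := hB.2 a (h ha) b hb _ _ e
  rwa [← add_right_cancel e]

theorem Til.shift {G U : Type} [AddCommGroup G] {S : Set G} {t : U → G} (h : Til S t) (o : G) :
    Til {y | y - o ∈ S} t := by
  refine ⟨fun g => ?_, fun a ha a' ha' u u' e => h.2 _ ha _ ha' u u' ?_⟩
  · obtain ⟨a, ha, u, e⟩ := h.1 (g - o)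
    exact ⟨a + o, by simpa using ha, u, by rw [add_right_comm, e, sub_add_cancel]⟩
  · rw [sub_add_eq_add_sub, e, sub_add_eq_add_sub]

theorem Til.pi {ι : Type} {G T : ι → Type} [∀ n, AddCommGroup (G n)] {S : ∀ n, Set (G n)}
    {t : ∀ n, T n → G n} (h : ∀ n, Til (S n) (t n)) :
    Til {y : ∀ n, G n | ∀ n, y n ∈ S n} fun (u : ∀ n, T n) n => t n (u n) := by
  refine ⟨fun g => ?_, fun a ha a' ha' u u' e =>
    funext fun n => (h n).2 _ (ha n) _ (ha' n) _ _ (congrFun e n)⟩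
  choose a ha u e using fun n => (h n).1 (g n)
  exact ⟨a, ha, u, funext e⟩

theorem til_local {X Y U : Type} [AddCommGroup X] [AddCommGroup Y] {A : Set (X × Y)} {g : U → Y} :
    Til A (fun u => (0, g u)) ↔ ∀ x, Til {y | (x, y) ∈ A} g := by
  refine ⟨fun h x => ⟨fun y => ?_, fun a ha a' ha' u u' e => h.2 _ ha _ ha' u u' (by simp [e])⟩,
    fun h => ⟨fun ⟨x, y⟩ => ?_, fun ⟨x, a⟩ ha ⟨x', a'⟩ ha' u u' e => ?_⟩⟩
  · obtain ⟨⟨x', a⟩, ha, u, e⟩ := h.1 (x, y)
    simp only [Prod.mk_add_mk, add_zero, Prod.mk.injEq] at e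
    exact ⟨a, e.1 ▸ ha, u, e.2⟩
  · obtain ⟨a, ha, u, e⟩ := (h x).1 y
    exact ⟨(x, a), ha, u, by simp [e]⟩
  · simp only [Prod.mk_add_mk, add_zero, Prod.mk.injEq] at e
    exact (h x).2 a ha a' (e.1 ▸ ha') u u' e.2

theorem exists_cyc (ι : Type) [Finite ι] [Nonempty ι] :
    ∃ nx : ι → ι, ∀ D : Set ι, (∀ n ∈ D, nx n ∈ D) → ∀ n ∈ D, ∀ k, k ∈ D := by
  have : NeZero (Nat.card ι) := ⟨Nat.card_pos.ne'⟩
  obtain ⟨e⟩ : Nonempty (ι ≃ ZMod (Nat.card ι)) := Finite.card_eq.1 (by simp)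
  refine ⟨fun n => e.symm (e n + 1), fun D hD n hn k => ?_⟩
  have h : ∀ j : ℕ, e.symm (e n + j) ∈ D := fun j => by
    induction j with
    | zero => simpa using hn
    | succ j ih => simpa [add_assoc] using hD _ ih
  simpa using h (e k - e n).val

/-- A boolean variable carried by a finite group. -/
structure Var (G : Type) [AddCommGroup G] (fl : Bool) : Type 1 where
  T : Type
  fin : Finite T
  t : T → G
  S : Bool → Set G
  til : ∀ b, Til (S b) t
  sep : ∀ d, (∀ b, ¬ ∃ s ∈ S b, ∃ s' ∈ S b, s - s' = d) →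
    ∃ (t' : T → G) (u u' : T), (∀ b, Til (S b) t') ∧ t' u - t' u' = d
  box : ∀ B : Set G, (∀ y ∈ B, ∀ y' ∈ B, ∃ b, ∃ s ∈ S b, ∃ s' ∈ S b, s - s' = y - y') →
    ∃ b o, ∀ y ∈ B, y - o ∈ S b
  clause : ∀ γ, ∃ (m : G) (φ : T → Prop) (u u' : T),
    (∀ s ∈ S (!γ), ∀ s' ∈ S (!γ), ∀ v v', s + (t v + m) = s' + t v' → (φ v ↔ φ v')) ∧
    φ u ∧ ¬ φ u' ∧ ∃ s ∈ S γ, ∃ s' ∈ S γ, s + (t u + m) = s' + t u'
  rel : ∃ R : Set (Set T × G),
    (∀ r ∈ R, ∀ b y, (∃ s ∈ S (xor b fl), ∃ u ∈ r.1, s + (t u + r.2) = y) ↔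
      ∃ s ∈ S b, ∃ u ∈ r.1, s + t u = y) ∧
    ∀ b b' o o', (∀ r ∈ R, ∀ s' ∈ S b', ∀ u' ∈ r.1, ∃ s ∈ S b, ∃ u ∈ r.1,
      s' + o' + (t u' + r.2) = s + o + t u) → b' = xor b fl

section

variable {ι : Type} [Finite ι] {G : ι → Type} [∀ n, AddCommGroup (G n)] [∀ n, Finite (G n)]
  {fl : ι → Bool} (V : ∀ n, Var (G n) (fl n))

/-- The product state. -/
def pr (b : ι → Bool) : Set (∀ n, G n) := {y | ∀ n, y n ∈ (V n).S (b n)}

/-- The base tile. -/
def base (u : ∀ n, (V n).T) : ∀ n, G n := fun n => (V n).t (u n)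

omit [Finite ι] [∀ n, Finite (G n)] in
theorem til_base (b : ι → Bool) : Til (pr V b) (base V) := Til.pi fun n => (V n).til (b n)

theorem sep_tile (d : ∀ n, G n) (n : ι)
    (hd : ∀ b, ¬ ∃ s ∈ (V n).S b, ∃ s' ∈ (V n).S b, s - s' = d n) :
    ∃ (g : (∀ n, (V n).T) → ∀ n, G n) (u u' : ∀ n, (V n).T), (∀ b, Til (pr V b) g) ∧ u ≠ u' ∧
      g u - g u' = d := by
  classical
  have := fun n => (V n).fin
  obtain ⟨t', v, v', h1, h2⟩ := (V n).sep _ hd
  obtain ⟨s, hs, u0, -⟩ := (til_base V fun _ => false).1 0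
  have hv : v ≠ v' := by
    rintro rfl
    exact hd false ⟨s n, hs n, s n, hs n, by rw [← h2, sub_self, sub_self]⟩
  refine ⟨fun u => Function.update (base V u + if u n = v then d else 0) n (t' (u n)),
    Function.update u0 n v, Function.update u0 n v', fun b => (til_base V b).of_inj ?_,
    fun h => hv (by simpa using congrFun h n), funext fun k => ?_⟩
  · intro a ha a' ha' u u' e
    have e1 : u n = u' n := (h1 (b n)).2 _ (ha n) _ (ha' n) _ _ (by simpa using congrFun e n)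
    funext k
    by_cases hk : k = n
    · rw [hk, e1]
    · refine ((V k).til (b k)).2 _ (ha k) _ (ha' k) _ _ ?_
      have := congrFun e k
      simp only [Pi.add_apply, Function.update_of_ne hk, e1, ← add_assoc] at this
      exact add_right_cancel this
  · by_cases hk : k = n
    · subst hk
      simpa using h2
    · simp [hk, hv.symm, base]

theorem clause_tile [Nonempty ι] (γ : ι → Bool) :
    ∃ g : (∀ n, (V n).T) → ∀ n, G n, (∀ b, b ≠ γ → Til (pr V b) g) ∧ ¬ Til (pr V γ) g := by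
  classical
  have := fun n => (V n).fin
  obtain ⟨nx, hnx⟩ := exists_cyc ι
  choose m φ v v' h1 h2 h3 s hs s' hs' h4 using fun n => (V n).clause (γ n)
  refine ⟨fun u n => (V n).t (u n) + if φ (nx n) (u (nx n)) then m n else 0,
    fun b hb => (til_base V b).of_inj fun a ha a' ha' u u' e => ?_, fun h => ?_⟩
  · have same : ∀ n, (φ (nx n) (u (nx n)) ↔ φ (nx n) (u' (nx n))) → u n = u' n := by
      intro n hn
      refine ((V n).til (b n)).2 _ (ha n) _ (ha' n) _ _ ?_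
      have := congrFun e n
      simp only [Pi.add_apply, hn, ← add_assoc] at this
      exact add_right_cancel this
    obtain ⟨k, hk⟩ := Function.ne_iff.1 hb
    have hk' : b k = !γ k := Bool.eq_not_iff.2 hk
    have hD : φ k (u k) ↔ φ k (u' k) := by
      have e1 := congrFun e k
      have ha1 := ha k
      have ha2 := ha' k
      rw [hk'] at ha1 ha2
      by_cases c1 : φ (nx k) (u (nx k)) <;> by_cases c2 : φ (nx k) (u' (nx k))
      · rw [same k (by simp [c1, c2])]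
      · exact h1 k _ ha1 _ ha2 _ _ (by simpa [c1, c2] using e1)
      · exact (h1 k _ ha2 _ ha1 _ _ (by simpa [c1, c2] using e1.symm)).symm
      · rw [same k (by simp [c1, c2])]
    funext n
    refine same n (by_contra fun hn => ?_)
    exact hnx {n | ¬ (φ n (u n) ↔ φ n (u' n))} (fun j hj hj' => hj (by rw [same j hj'])) _ hn k hD
  · have := h.2 s hs s' hs' v v' (funext fun n => by simpa [h2, h3] using h4 n)
    obtain ⟨n⟩ := ‹Nonempty ι›
    exact h3 n (this ▸ h2 n)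

theorem fibre_eq [Nonempty ι] (P : Set (ι → Bool)) (B : Set (∀ n, G n))
    (hB : ∀ g : (∀ n, (V n).T) → ∀ n, G n, (∀ b ∈ P, Til (pr V b) g) → Til B g) :
    ∃ b ∈ P, ∃ o, B = {y | y - o ∈ pr V b} := by
  have h1 : ∀ n, ∃ b o, ∀ y ∈ (fun y : ∀ n, G n => y n) '' B, y - o ∈ (V n).S b := by
    intro n
    refine (V n).box _ ?_
    rintro _ ⟨y, hy, rfl⟩ _ ⟨y', hy', rfl⟩
    by_contra h
    obtain ⟨g, u, u', h2, h3, h4⟩ := sep_tile V (y - y') n fun b hb => h ⟨b, hb⟩
    refine h3 ((hB g fun b _ => h2 b).2 y' hy' y hy u u' ?_)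
    rw [sub_eq_iff_eq_add.1 h4]
    abel
  choose b o h1 using h1
  have h2 : B = {y | y - o ∈ pr V b} := (hB _ fun b _ => til_base V b).eq_of_subset
    ((til_base V b).shift o) fun y hy n => h1 n _ ⟨y, hy, rfl⟩
  refine ⟨b, by_contra fun hb => ?_, o, h2⟩
  obtain ⟨g, h3, h4⟩ := clause_tile V b
  have h5 := (hB g fun b' hb' => h3 b' fun e => hb (e ▸ hb')).shift (-o)
  rw [h2] at h5
  exact h4 (by simpa using h5)

open Classical in
/-- The two-point tile. -/
noncomputable def two {X : Type} [AddCommGroup X] (h : X) (n : ι) (Q : Set (V n).T) (c : G n)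
    (u : ∀ n, (V n).T) : X × ∀ n, G n :=
  if u n ∈ Q then (h, base V u + Pi.single n c) else (0, base V u)

omit [Finite ι] [∀ n, Finite (G n)] in
theorem til_two {X : Type} [AddCommGroup X] (h : X) (n : ι) (Q : Set (V n).T) (c : G n)
    (β : X → ι → Bool)
    (hβ : ∀ x y, (∃ s ∈ (V n).S (β (x - h) n), ∃ u ∈ Q, s + ((V n).t u + c) = y) ↔
      ∃ s ∈ (V n).S (β x n), ∃ u ∈ Q, s + (V n).t u = y) :
    Til {p : X × ∀ n, G n | p.2 ∈ pr V (β p.1)} (two V h n Q c) := by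
  classical
  constructor
  · rintro ⟨x, y⟩
    obtain ⟨a, ha, u, e⟩ := (til_base V (β x)).1 y
    by_cases hu : u n ∈ Q
    · obtain ⟨s, hs, v, hv, e1⟩ := (hβ x (y n)).2 ⟨a n, ha n, u n, hu, congrFun e n⟩
      obtain ⟨a', ha', u', e'⟩ := (til_base V (β (x - h))).1 (y - Pi.single n c)
      have e2 : u' n = v := ((V n).til _).2 _ (ha' n) _ hs _ _ (by
        have := congrFun e' n
        simp only [Pi.add_apply, Pi.sub_apply, Pi.single_eq_same, base] at this
        rw [this, ← e1]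
        abel)
      refine ⟨(x - h, a'), ha', u', ?_⟩
      rw [two, if_pos (e2 ▸ hv), Prod.mk_add_mk, ← add_assoc, e']
      simp
    · exact ⟨(x, a), ha, u, by simp [two, hu, e]⟩
  · have mixed : ∀ x a, a ∈ pr V (β x) → ∀ x' a', a' ∈ pr V (β x') → ∀ u u', u n ∈ Q → u' n ∉ Q →
        (x, a) + two V h n Q c u = (x', a') + two V h n Q c u' → False := by
      intro x a ha x' a' ha' u u' hu hu' e
      simp only [two, hu, hu', if_true, if_false, Prod.mk_add_mk, add_zero, Prod.mk.injEq] at e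
      obtain rfl : x = x' - h := eq_sub_of_add_eq e.1
      obtain ⟨s, hs, v, hv, e1⟩ := (hβ x' _).1 ⟨a n, ha n, u n, hu, rfl⟩
      have e2 := congrFun e.2 n
      simp only [Pi.add_apply, Pi.single_eq_same, base] at e2
      exact hu' (((V n).til _).2 _ hs _ (ha' n) _ _ (e1.trans e2) ▸ hv)
    rintro ⟨x, a⟩ ha ⟨x', a'⟩ ha' u u' e
    by_cases hu : u n ∈ Q <;> by_cases hu' : u' n ∈ Q
    · simp only [two, hu, hu', if_true, Prod.mk_add_mk, Prod.mk.injEq, ← add_assoc,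
        add_left_inj] at e
      exact (til_base V (β x)).2 a ha a' (e.1 ▸ ha') _ _ e.2
    · exact (mixed x a ha x' a' ha' u u' hu hu' e).elim
    · exact (mixed x' a' ha' x a ha u' u hu' hu e.symm).elim
    · simp only [two, hu, hu', if_false, Prod.mk_add_mk, Prod.mk.injEq, add_zero] at e
      exact (til_base V (β x)).2 a ha a' (e.1 ▸ ha') _ _ e.2

include V in
theorem aper_of_vars [Nonempty ι] {X : Type} [AddCommGroup X] (h : ι → X) (β : X → ι → Bool)
    (hβ : ∀ x n, β (x - h n) n = xor (β x n) (fl n))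
    (hper : ∀ β' : X → ι → Bool, (∀ x, ∃ x', β' x = β x') →
      (∀ x n, β' (x - h n) n = xor (β' x n) (fl n)) →
      ∀ N : ℕ, 0 < N → ¬ ∀ x g, β' (x + N • g) = β' x) : Aper (X × ∀ n, G n) := by
  classical
  have := fun n => (V n).fin
  have := Fintype.ofFinite ι
  have := Fintype.ofFinite (∀ n, G n)
  refine ⟨∀ n, (V n).T, inferInstance, (insert 0 (Finset.univ.image h)) ×ˢ Finset.univ,
    {p | p.2 ∈ pr V (β p.1)}, ⟨fun u => (0, base V u), fun u => by simp,
      til_local.2 fun x => til_base V (β x)⟩, fun A hA N hN hp => ?_⟩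
  have h1 : ∀ x, ∃ b ∈ Set.range β, ∃ o, {y | (x, y) ∈ A} = {y | y - o ∈ pr V b} := fun x =>
    fibre_eq V _ _ fun g hg => til_local.1 (hA _ (fun u => by simp)
      (til_local.2 fun x' => hg _ ⟨x', rfl⟩)) x
  have h2 : ∀ B : Set (∀ n, G n), ∃ b o, (∃ b ∈ Set.range β, ∃ o, B = {y | y - o ∈ pr V b}) →
      b ∈ Set.range β ∧ B = {y | y - o ∈ pr V b} := fun B => by
    by_cases hB : ∃ b ∈ Set.range β, ∃ o, B = {y | y - o ∈ pr V b}
    · obtain ⟨b, h3, o, h4⟩ := hB
      exact ⟨b, o, fun _ => ⟨h3, h4⟩⟩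
    · exact ⟨fun _ => false, 0, fun h => absurd h hB⟩
  choose b o h2 using h2
  have hb : Til A fun u => (0, base V u) :=
    hA _ (fun u => by simp) (til_local.2 fun x => til_base V (β x))
  refine hper (fun x => b {y | (x, y) ∈ A}) (fun x => ?_) (fun x n => ?_) N hN fun x g => ?_
  · obtain ⟨x', e⟩ := (h2 _ (h1 x)).1
    exact ⟨x', e.symm⟩
  · obtain ⟨R, hR1, hR2⟩ := (V n).rel
    refine hR2 _ _ (o {y | (x, y) ∈ A} n) (o {y | (x - h n, y) ∈ A} n) fun r hr s' hs' v hv => ?_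
    have ht := hA (two V (h n) n r.1 r.2) (fun u => by unfold two; split_ifs <;> simp)
      (til_two V _ n _ _ β fun x y => by rw [hβ]; exact hR1 r hr _ y)
    have e1 := (h2 _ (h1 x)).2
    have e2 := (h2 _ (h1 (x - h n))).2
    obtain ⟨s0, hs0, u0, -⟩ := (til_base V (b {y | (x - h n, y) ∈ A})).1 0
    have ha' : Function.update s0 n s' + o {y | (x - h n, y) ∈ A} ∈ {y | (x - h n, y) ∈ A} := by
      rw [Set.ext_iff.1 e2]
      intro k
      rw [add_sub_cancel_right]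
      by_cases hk : k = n
      · subst hk; simpa using hs'
      · simpa [hk] using hs0 k
    obtain ⟨a, ha, u, e⟩ := (til_local.1 hb x).1 (Function.update s0 n s' +
      o {y | (x - h n, y) ∈ A} + (base V (Function.update u0 n v) + Pi.single n r.2))
    have hu : u n ∈ r.1 := by
      by_contra hu
      have := ht.2 (x, a) ha _ ha' u (Function.update u0 n v) (by simp [two, hu, hv, e])
      exact hu (by simpa [this] using hv)
    refine ⟨a n - o {y | (x, y) ∈ A} n, (Set.ext_iff.1 e1 a).1 ha n, u n, hu, ?_⟩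
    simpa [base] using (congrFun e n).symm
  · have : {y | (x + N • g, y) ∈ A} = {y | (x, y) ∈ A} := Set.ext fun y =>
      ⟨fun hy => by simpa using hp (-g, 0) _ hy, fun hy => by simpa using hp (g, 0) _ hy⟩
    simp only [this]

end

end Vale.Agent.P043
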