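import Mathlib
import Vale.Agent.P043.Dens

/-! Rigidity of Euclidean tilings by a coloured concatenation of tiles. -/

namespace Vale.Agent.P043

open MeasureTheory

/-- The union of the half-open unit cubes with corners in `F`. -/
def solid {d : ℕ} (F : Finset (Fin d → ℤ)) : Set (Fin d → ℝ) := {x | (fun k => ⌊x k⌋) ∈ F}

theorem mem_shift {d : ℕ} (Ω : Set (Fin d → ℝ)) (a x : Fin d → ℝ) :
    x ∈ (fun x => x + a) '' Ω ↔ x - a ∈ Ω :=
  ⟨by rintro ⟨y, hy, rfl⟩; simpa using hy, fun h => ⟨_, h, sub_add_cancel _ _⟩⟩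

theorem overlap {d : ℕ} {F : Finset (Fin d → ℤ)} {A : Set (Fin d → ℝ)}
    (hA : IsRealTiling A (solid F)) {a a' : Fin d → ℝ} (ha : a ∈ A) (ha' : a' ∈ A)
    {w w' : Fin d → ℤ} (hw : w ∈ F) (hw' : w' ∈ F)
    (h : ∀ k, |a k + w k - (a' k + w' k)| < 1) : a = a' := by
  by_contra hne
  have h0 := hA.2 a ha a' ha' hne
  have hO : IsOpen (Set.univ.pi fun k => Set.Ioo (max (a k + w k) (a' k + w' k))
      (min (a k + w k) (a' k + w' k) + 1)) :=
    isOpen_set_pi Set.finite_univ fun k _ => isOpen_Ioo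
  refine hO.measure_ne_zero volume (Set.univ_pi_nonempty_iff.2 fun k => Set.nonempty_Ioo.2 ?_)
    (measure_mono_null (fun x hx => ?_) h0)
  · have := abs_lt.1 (h k)
    rcases le_total (a k + w k) (a' k + w' k) with h1 | h1
    · rw [max_eq_right h1, min_eq_left h1]; linarith
    · rw [max_eq_left h1, min_eq_right h1]; linarith
  · have hx' : ∀ k, (a k + w k < x k ∧ a' k + w' k < x k) ∧
        x k - 1 < a k + w k ∧ x k - 1 < a' k + w' k := fun k => by
      have := hx k (Set.mem_univ k)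
      exact ⟨max_lt_iff.1 this.1, lt_min_iff.1 (by linarith [this.2])⟩
    refine ⟨(mem_shift _ _ _).2 ?_, (mem_shift _ _ _).2 ?_⟩
    · have : (fun k => ⌊(x - a) k⌋) = w := funext fun k => Int.floor_eq_iff.2
        ⟨by simp only [Pi.sub_apply]; linarith [(hx' k).1.1],
          by simp only [Pi.sub_apply]; linarith [(hx' k).2.1]⟩
      simpa only [solid, Set.mem_ofPred_eq, this] using hw
    · have : (fun k => ⌊(x - a') k⌋) = w' := funext fun k => Int.floor_eq_iff.2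
        ⟨by simp only [Pi.sub_apply]; linarith [(hx' k).1.2],
          by simp only [Pi.sub_apply]; linarith [(hx' k).2.2]⟩
      simpa only [solid, Set.mem_ofPred_eq, this] using hw'

theorem near (M : ℕ) (hM : 2 ≤ M) (s : ℝ) (h0 : s ≠ 0) (h1 : |s| < M) :
    ∃ n : ℤ, |n| ≤ M ∧ ¬ (M : ℤ) ∣ n ∧ |s - n| < 1 := by
  have key : ∀ s : ℝ, 0 < s → s < M → ∃ n : ℤ, 0 < n ∧ n < M ∧ |s - n| < 1 := by
    intro s h0 h1
    by_cases h2 : s < 1
    · exact ⟨1, one_pos, by omega, abs_lt.2 ⟨by push_cast; linarith, by push_cast; linarith⟩⟩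
    · refine ⟨⌊s⌋, Int.floor_pos.2 (not_lt.1 h2), Int.floor_lt.2 (by exact_mod_cast h1), ?_⟩
      rw [abs_lt]
      exact ⟨by linarith [Int.floor_le s], by linarith [Int.lt_floor_add_one s]⟩
  rw [abs_lt] at h1
  rcases lt_or_gt_of_ne h0 with h2 | h2
  · obtain ⟨n, h3, h4, h5⟩ := key (-s) (by linarith) (by linarith)
    refine ⟨-n, by rw [abs_neg, abs_of_pos h3]; omega, fun h => ?_, ?_⟩
    · exact (Int.le_of_dvd h3 (dvd_neg.1 h)).not_gt h4
    · rw [← abs_neg]; convert h5 using 2; push_cast; ring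
  · obtain ⟨n, h3, h4, h5⟩ := key s h2 h1.2
    exact ⟨n, by rw [abs_of_pos h3]; omega, fun h => (Int.le_of_dvd h3 h).not_gt h4, h5⟩

theorem rigid {d : ℕ} (hd : 0 < d) {U I : Type} [Finite U] (t : I → U → Fin d → ℤ)
    (ht : ∀ i, Function.Injective (t i)) (u₀ : U) (i₀ : I)
    {M : ℕ} {c : (Fin d → ℤ) → I} {φ : (Fin d → ℤ) → Fin d → ℤ} (hM : 2 ≤ M)
    (hcol : ∀ n : Fin d → ℤ, (∀ k, |n k| ≤ M) → (∃ k, ¬ (M : ℤ) ∣ n k) → ∀ i j : I,
      ∃ r r' : Fin d → ℤ, (∀ k, 0 ≤ r k ∧ r k < M) ∧ (∀ k, 0 ≤ r' k ∧ r' k < M) ∧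
        c r = i ∧ c r' = j ∧ ∀ k, r' k + M * φ r' k - (r k + M * φ r k) = n k)
    {F : Finset (Fin d → ℤ)} (hF : ∀ w, w ∈ F ↔ ∃ (r : Fin d → ℤ) (u : U), (∀ k, 0 ≤ r k ∧ r k < M) ∧
      w = fun k => r k + M * (φ r k + t (c r) u k))
    {A : Set (Fin d → ℝ)} (hA : IsRealTiling A (solid F)) (hp : IsRealPeriodic A) :
    (∀ a ∈ A, ∀ a' ∈ A, ∀ i j u u', (∀ k, |a k + M * t i u k - (a' k + M * t j u' k)| < M) →
      ∀ k, a k + M * t i u k = a' k + M * t j u' k) ∧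
    (∀ a ∈ A, ∀ a' ∈ A, ∀ i u u', (∀ k, a k + M * t i u k = a' k + M * t i u' k) → u = u') ∧
    ∀ i (y : Fin d → ℝ), ∃ a ∈ A, ∃ u, ∀ k, |a k + M * t i u k - y k| < M := by
  have hM0 : (0 : ℝ) < M := by exact_mod_cast (by omega : 0 < M)
  have sep : ∀ a ∈ A, ∀ a' ∈ A, ∀ i j u u',
      (∀ k, |a k + M * t i u k - (a' k + M * t j u' k)| < M) →
      ∀ k, a k + M * t i u k = a' k + M * t j u' k := by
    intro a ha a' ha' i j u u' h k0
    by_contra hne
    obtain ⟨n0, h1, h2, h3⟩ := near M hM _ (sub_ne_zero.2 hne) (h k0)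
    have h4 : ∀ k, ∃ n : ℤ, |n| ≤ M ∧ |a k + M * t i u k - (a' k + M * t j u' k) - n| < 1 ∧
        (k = k0 → ¬ (M : ℤ) ∣ n) := by
      intro k
      by_cases hk : k = k0
      · subst hk; exact ⟨n0, h1, h3, fun _ => h2⟩
      · by_cases h5 : a k + M * t i u k - (a' k + M * t j u' k) = 0
        · exact ⟨0, by simp, by simp [h5], fun e => absurd e hk⟩
        · obtain ⟨n, h6, -, h7⟩ := near M hM _ h5 (h k)
          exact ⟨n, h6, h7, fun e => absurd e hk⟩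
    choose n h4 h5 h6 using h4
    obtain ⟨r, r', hr, hr', rfl, rfl, e⟩ := hcol n h4 ⟨k0, h6 k0 rfl⟩ i j
    have h7 : a = a' := overlap hA ha ha' ((hF _).2 ⟨r, u, hr, rfl⟩) ((hF _).2 ⟨r', u', hr', rfl⟩)
      fun k => by
        convert h5 k using 2
        rw [← e k]; push_cast; ring
    subst h7
    have h8 := h k0
    rw [add_sub_add_left_eq_sub, ← mul_sub, abs_mul, abs_of_pos hM0, mul_lt_iff_lt_one_right hM0,
      ← Int.cast_sub, ← Int.cast_abs, ← Int.cast_one, Int.cast_lt, Int.abs_lt_one_iff,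
      sub_eq_zero] at h8
    exact hne (by rw [h8])
  have hsurj : ∀ i, ∃ r : Fin d → ℤ, (∀ k, 0 ≤ r k ∧ r k < M) ∧ c r = i := fun i => by
    obtain ⟨r, -, hr, -, h, -⟩ := hcol 1 (fun k => by simp; omega)
      ⟨⟨0, hd⟩, fun h => by have := Int.le_of_dvd one_pos h; omega⟩ i i
    exact ⟨r, hr, h⟩
  have inj : ∀ a ∈ A, ∀ a' ∈ A, ∀ i u u',
      (∀ k, a k + M * t i u k = a' k + M * t i u' k) → u = u' := by
    intro a ha a' ha' i u u' h
    obtain ⟨r, hr, rfl⟩ := hsurj i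
    have h7 : a = a' := overlap hA ha ha' ((hF _).2 ⟨r, u, hr, rfl⟩) ((hF _).2 ⟨r, u', hr, rfl⟩)
      fun k => by
        rw [show a k + ((r k + M * (φ r k + t (c r) u k) : ℤ) : ℝ) -
          (a' k + ((r k + M * (φ r k + t (c r) u' k) : ℤ) : ℝ)) = 0 by
            push_cast; linear_combination h k]
        simp
    subst h7
    refine ht (c r) (funext fun k => ?_)
    exact_mod_cast mul_left_cancel₀ hM0.ne' (add_left_cancel (h k))
  refine ⟨sep, inj, fun i y => ?_⟩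
  have hc : A.Countable := by
    obtain ⟨r, hr, -⟩ := hsurj i₀
    refine Set.MapsTo.countable_of_injOn (f := fun (a : Fin d → ℝ) k => ⌊a k⌋)
      (Set.mapsTo_univ _ _) (fun a ha a' ha' e => ?_) Set.countable_univ
    refine overlap hA ha ha' ((hF _).2 ⟨r, u₀, hr, rfl⟩) ((hF _).2 ⟨r, u₀, hr, rfl⟩) fun k => ?_
    rw [add_sub_add_right_eq_sub]
    exact Int.abs_sub_lt_one_of_floor_eq_floor (congrFun e k)
  have key := dens (J := {r : Fin d → ℤ // ∀ k, 0 ≤ r k ∧ r k < M} × U)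
    (fun p k => p.1.1 k + M * (φ p.1.1 k + t (c p.1.1) p.2 k)) (fun p k => p.1.1 k + M * t i p.2 k)
    hc hp (measure_mono_null (Set.compl_subset_compl.2 fun x hx => ?_) hA.1) ?_
  · have hO : IsOpen (Set.univ.pi fun k => Set.Ioo (y k) (y k + M)) :=
      isOpen_set_pi Set.finite_univ fun k _ => isOpen_Ioo
    by_contra hcon
    refine hO.measure_ne_zero volume (Set.univ_pi_nonempty_iff.2 fun k => Set.nonempty_Ioo.2
      (by linarith)) (measure_mono_null (fun x hx => ?_) key)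
    refine fun hx' => hcon ?_
    obtain ⟨⟨⟨r, hr⟩, u⟩, a, ha, h⟩ := Set.mem_iUnion.1 hx'
    refine ⟨a, ha, u, fun k => ?_⟩
    have h1 := Int.floor_eq_iff.1 (h k)
    have h2 := hx k (Set.mem_univ k)
    have h3 : (0 : ℝ) ≤ r k := by exact_mod_cast (hr k).1
    have h4 : (r k : ℝ) + 1 ≤ M := by exact_mod_cast (hr k).2
    push_cast at h1
    exact abs_lt.2 ⟨by linarith [h2.1, h1.2], by linarith [h2.2, h1.1]⟩
  · simp only [Set.mem_iUnion] at hx ⊢
    obtain ⟨a, ha, hx⟩ := hx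
    obtain ⟨r, u, hr, e⟩ := (hF _).1 ((mem_shift _ _ _).1 hx)
    exact ⟨(⟨r, hr⟩, u), a, ha, fun k => congrFun e k⟩
  · rintro ⟨⟨r, hr⟩, u⟩ ⟨⟨r', hr'⟩, u'⟩ hne
    refine Set.disjoint_left.2 ?_
    rintro x ⟨a, ha, h⟩ ⟨a', ha', h'⟩
    have h0 := sep a ha a' ha' i i u u' fun k => by
      have h1 := Int.floor_eq_iff.1 (h k)
      have h2 := Int.floor_eq_iff.1 (h' k)
      have h3 : (0 : ℝ) ≤ r k := by exact_mod_cast (hr k).1
      have h4 : (r k : ℝ) + 1 ≤ M := by exact_mod_cast (hr k).2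
      have h5 : (0 : ℝ) ≤ r' k := by exact_mod_cast (hr' k).1
      have h6 : (r' k : ℝ) + 1 ≤ M := by exact_mod_cast (hr' k).2
      push_cast at h1 h2
      exact abs_lt.2 ⟨by linarith [h1.2, h2.1], by linarith [h1.1, h2.2]⟩
    obtain rfl := inj a ha a' ha' i u u' h0
    obtain rfl : a = a' := funext fun k => add_right_cancel (h0 k)
    refine hne (Prod.ext (Subtype.ext (funext fun k => ?_)) rfl)
    exact add_right_cancel ((h k).symm.trans (h' k))

end Vale.Agent.P043
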