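import Mathlib
import Vale.Agent.P043.Rigid
import Vale.Agent.P043.Color
import Vale.Agent.P043.Logic

/-! From an aperiodic system of tiling equations to one aperiodic tile. -/

namespace Vale.Agent.P043

open MeasureTheory

theorem real_of_int {d : ℕ} {A : Set (Fin d → ℤ)} {F : Finset (Fin d → ℤ)} (h : IsTiling A F) :
    IsRealTiling ((fun (a : Fin d → ℤ) k => (a k : ℝ)) '' A) (solid F) := by
  have e : ∀ (x : Fin d → ℝ) (a : Fin d → ℤ), x ∈ (fun x => x + fun k => (a k : ℝ)) '' solid F ↔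
      (fun k => ⌊x k⌋) - a ∈ F := fun x a => by
    rw [mem_shift]
    have : (fun k => ⌊(x - fun k => (a k : ℝ)) k⌋) = (fun k => ⌊x k⌋) - a := by
      funext k; simp
    simp only [solid, Set.mem_ofPred_eq, this]
  constructor
  · convert measure_empty (μ := (volume : Measure (Fin d → ℝ)))
    refine Set.compl_empty_iff.2 (Set.eq_univ_of_forall fun x => ?_)
    obtain ⟨⟨a, f⟩, ⟨ha, hf, h1⟩, -⟩ := h fun k => ⌊x k⌋
    refine Set.mem_biUnion (Set.mem_image_of_mem _ ha) ((e x a).2 ?_)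
    rwa [← h1, add_sub_cancel_left]
  · rintro _ ⟨a, ha, rfl⟩ _ ⟨b, hb, rfl⟩ hne
    convert measure_empty (μ := (volume : Measure (Fin d → ℝ)))
    refine Set.eq_empty_of_forall_notMem fun x ⟨h1, h2⟩ => hne ?_
    have := (h fun k => ⌊x k⌋).unique (y₁ := (a, _)) (y₂ := (b, _))
      ⟨ha, (e x a).1 h1, add_sub_cancel _ _⟩ ⟨hb, (e x b).1 h2, add_sub_cancel _ _⟩
    rw [show a = b from (Prod.ext_iff.1 this).1]

theorem periodic_of_int {d : ℕ} {A : Set (Fin d → ℤ)} (h : IsPeriodic A) :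
    IsRealPeriodic ((fun (a : Fin d → ℤ) k => (a k : ℝ)) '' A) := by
  obtain ⟨H, hH, h⟩ := h
  have hN : (H.index : ℝ) ≠ 0 := Nat.cast_ne_zero.2 hH.index_ne_zero
  refine ⟨(Pi.basisFun ℝ (Fin d)).unitsSMul fun _ => Units.mk0 _ hN, fun x hx => ?_⟩
  obtain ⟨g, hg, rfl⟩ : ∃ g ∈ H, (fun k => (g k : ℝ)) = x := by
    induction hx using Submodule.span_induction with
    | mem x hx =>
      obtain ⟨k, rfl⟩ := hx
      refine ⟨_, H.nsmul_index_mem (Pi.single k 1), funext fun l => ?_⟩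
      by_cases hl : l = k
      · simp [hl, Module.Basis.unitsSMul_apply]
      · simp [hl, Module.Basis.unitsSMul_apply]
    | zero => exact ⟨0, H.zero_mem, funext fun k => by simp⟩
    | add x y _ _ hx hy =>
      obtain ⟨g, hg, rfl⟩ := hx
      obtain ⟨g', hg', rfl⟩ := hy
      exact ⟨g + g', H.add_mem hg hg', funext fun k => by simp⟩
    | smul n x _ hx =>
      obtain ⟨g, hg, rfl⟩ := hx
      exact ⟨n • g, H.zsmul_mem hg n, funext fun k => by simp⟩
  conv_rhs => rw [← h g hg]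
  rw [Set.image_image, Set.image_image]
  exact Set.image_congr fun a _ => funext fun k => by simp

theorem solid_props {d : ℕ} {F : Finset (Fin d → ℤ)} (h : F.Nonempty) :
    Bornology.IsBounded (solid F) ∧ MeasurableSet (solid F) ∧ 0 < volume (solid F) := by
  have e : solid F = ⋃ w ∈ F, Set.univ.pi fun k => Set.Ico (w k : ℝ) (w k + 1) := by
    ext x
    simp only [solid, Set.mem_ofPred_eq, Set.mem_iUnion, Set.mem_univ_pi, Set.mem_Ico,
      ← Int.floor_eq_iff]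
    exact ⟨fun h => ⟨_, h, fun _ => rfl⟩, fun ⟨w, hw, h⟩ => by rwa [funext h]⟩
  refine ⟨?_, ?_, ?_⟩
  · rw [e, Bornology.isBounded_biUnion_finset]
    exact fun w _ => Bornology.IsBounded.pi fun k => Metric.isBounded_Ico _ _
  · rw [e]
    exact F.measurableSet_biUnion fun w _ => MeasurableSet.univ_pi fun k => measurableSet_Ico
  · obtain ⟨w, hw⟩ := h
    rw [e]
    refine lt_of_lt_of_le ?_ (measure_mono (Set.subset_biUnion_of_mem
      (u := fun w : Fin d → ℤ => Set.univ.pi fun k => Set.Ico (w k : ℝ) (w k + 1)) hw))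
    simp [Real.volume_pi_Ico]

theorem lattice_period {d : ℕ} (b : Module.Basis (Fin d) ℝ (Fin d → ℝ)) (M : ℝ)
    (g : Matrix (Fin d) (Fin d) ℤ) (hg : ∀ k l, b k l = M * g k l) :
    ∃ N : ℕ, 0 < N ∧ ∀ x : Fin d → ℤ,
      (fun l => M * ((N • x) l : ℝ)) ∈ Submodule.span ℤ (Set.range b) := by
  have h1 : ∀ y : Fin d → ℤ, (fun l => M * ((Matrix.vecMul y g l : ℤ) : ℝ)) = ∑ k, y k • b k := by
    intro y
    funext l
    simp [Matrix.vecMul, dotProduct, hg, Finset.mul_sum, mul_left_comm]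
  have h2 : g.det ≠ 0 := by
    intro h
    obtain ⟨v, hv, h3⟩ := Matrix.exists_vecMul_eq_zero_iff.2 h
    have h4 := Fintype.linearIndependent_iff.1 b.linearIndependent (fun k => (v k : ℝ)) (by
      simp only [Int.cast_smul_eq_zsmul, ← h1, h3]
      funext l; simp)
    exact hv (funext fun k => by exact_mod_cast h4 k)
  refine ⟨g.det.natAbs * g.det.natAbs, by positivity, fun x => ?_⟩
  have h3 : (g.det.natAbs * g.det.natAbs) • x =
      Matrix.vecMul (Matrix.vecMul (g.det • x) g.adjugate) g := by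
    rw [Matrix.vecMul_vecMul, Matrix.adjugate_mul, Matrix.vecMul_smul, Matrix.vecMul_one,
      smul_smul, ← Int.natAbs_mul_self, natCast_zsmul]
  rw [h3, h1]
  exact Submodule.sum_mem _ fun k _ => Submodule.smul_mem _ _ (Submodule.subset_span ⟨k, rfl⟩)

theorem one_tile {d : ℕ} (hd : 0 < d) (h : Aper (Fin d → ℤ)) : ∃ F : Finset (Fin d → ℤ),
    F.Nonempty ∧ (∃ A, IsTiling A F) ∧ ∀ A, IsRealTiling A (solid F) → ¬ IsRealPeriodic A := by
  classical
  obtain ⟨U, hU, W, A₀, ⟨f₀, hf₀⟩, hap⟩ := h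
  obtain ⟨a₁, ha₁, u₀, -⟩ := hf₀.2.1 0
  have : Finite {f : U → Fin d → ℤ // (∀ u, f u ∈ W) ∧ Til A₀ f} :=
    Finite.of_injective (fun f u => (⟨f.1 u, f.2.1 u⟩ : W)) fun f f' e =>
      Subtype.ext (funext fun u => congrArg Subtype.val (congrFun e u))
  have : Nonempty {f : U → Fin d → ℤ // (∀ u, f u ∈ W) ∧ Til A₀ f} := ⟨⟨f₀, hf₀⟩⟩
  obtain ⟨M, c, φ, hM, hcol⟩ :=
    exists_color d ({f : U → Fin d → ℤ // (∀ u, f u ∈ W) ∧ Til A₀ f} × Option (Fin d))
  obtain ⟨t, ht⟩ : ∃ t : {f : U → Fin d → ℤ // (∀ u, f u ∈ W) ∧ Til A₀ f} × Option (Fin d) → U →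
    Fin d → ℤ, ∀ i u, t i u = i.1.1 u + i.2.elim 0 fun k => Pi.single k 1 := ⟨_, fun _ _ => rfl⟩
  have htil : ∀ i, Til A₀ (t i) := fun i => by
    refine ⟨fun g => ?_, fun a ha a' ha' u u' e => i.1.2.2.2 a ha a' ha' u u' ?_⟩
    · obtain ⟨a, ha, u, e⟩ := i.1.2.2.1 (g - i.2.elim 0 fun k => Pi.single k 1)
      exact ⟨a, ha, u, by rw [ht, ← add_assoc, e, sub_add_cancel]⟩
    · rwa [ht, ht, ← add_assoc, ← add_assoc, add_left_inj] at e
  have := Fintype.ofFinite U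
  obtain ⟨F, hF⟩ : ∃ F : Finset (Fin d → ℤ), ∀ w, w ∈ F ↔ ∃ (r : Fin d → ℤ) (u : U),
      (∀ k, 0 ≤ r k ∧ r k < M) ∧ w = fun k => r k + M * (φ r k + t (c r) u k) :=
    ⟨((Fintype.piFinset fun _ => Finset.Ico (0 : ℤ) M) ×ˢ (Finset.univ : Finset U)).image
      fun p k => p.1 k + M * (φ p.1 k + t (c p.1) p.2 k), fun w => by simp [eq_comm]⟩
  have hM0 : (0 : ℤ) < M := by omega
  refine ⟨F, ⟨_, (hF _).2 ⟨0, u₀, fun k => ⟨le_rfl, hM0⟩, rfl⟩⟩,
    ⟨(fun a => (M : ℤ) • a) '' A₀, fun g => ?_⟩, fun A hA hp => ?_⟩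
  · obtain ⟨a, ha, u, e⟩ := (htil (c fun k => g k % M)).1
      ((fun k => g k / M) - φ fun k => g k % M)
    refine existsUnique_of_exists_of_unique ⟨(_, _), Set.mem_image_of_mem _ ha, (hF _).2
      ⟨fun k => g k % M, u, fun k => ⟨Int.emod_nonneg _ hM0.ne', Int.emod_lt_of_pos _ hM0⟩, rfl⟩,
      funext fun k => ?_⟩ ?_
    · have h1 := congrFun e k
      have h2 := Int.emod_add_mul_ediv (g k) M
      simp only [Pi.add_apply, Pi.sub_apply, Pi.smul_apply, smul_eq_mul] at h1 ⊢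
      linear_combination M * h1 + h2
    · rintro ⟨_, w⟩ ⟨_, w'⟩ ⟨⟨a, ha, rfl⟩, hw, e⟩ ⟨⟨a', ha', rfl⟩, hw', e'⟩
      obtain ⟨r, u, hr, rfl⟩ := (hF _).1 hw
      obtain ⟨r', u', hr', rfl⟩ := (hF _).1 hw'
      have h1 : ∀ k, M * a k + (r k + M * (φ r k + t (c r) u k)) =
          M * a' k + (r' k + M * (φ r' k + t (c r') u' k)) := fun k => congrFun (e.trans e'.symm) k
      obtain rfl : r = r' := funext fun k => by
        have h2 : (M : ℤ) ∣ r k - r' k :=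
          ⟨a' k + φ r' k + t (c r') u' k - (a k + φ r k + t (c r) u k), by linear_combination h1 k⟩
        have := hr k
        have := hr' k
        exact sub_eq_zero.1 (Int.eq_zero_of_abs_lt_dvd h2 (abs_lt.2 ⟨by omega, by omega⟩))
      have h2 : a + t (c r) u = a' + t (c r) u' := funext fun k =>
        mul_left_cancel₀ hM0.ne' (by simp only [Pi.add_apply]; linear_combination h1 k)
      obtain rfl := (htil _).2 a ha a' ha' u u' h2
      rw [add_right_cancel h2]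
  obtain ⟨sep, inj, den⟩ := rigid hd t (fun i u u' e => (htil i).2 a₁ ha₁ a₁ ha₁ u u' (by rw [e]))
    u₀ (⟨f₀, hf₀⟩, none) hM hcol hF hA hp
  have hM1 : (0 : ℝ) < M := by exact_mod_cast hM0
  have eqP : ∀ i j, ∀ a ∈ A, ∀ u, ∃ a' ∈ A, ∃ u', ∀ k, a' k + M * t j u' k = a k + M * t i u k := by
    intro i j a ha u
    obtain ⟨a', ha', u', h⟩ := den j fun k => a k + M * t i u k
    exact ⟨a', ha', u', sep a' ha' a ha j i u' u h⟩
  obtain ⟨P, hP⟩ : ∃ P : Set (Fin d → ℝ), ∀ i p, p ∈ P ↔ ∃ a ∈ A, ∃ u,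
      ∀ k, a k + M * t i u k = p k := by
    refine ⟨{p | ∃ i, ∃ a ∈ A, ∃ u, ∀ k, a k + M * t i u k = p k}, fun i p =>
      ⟨fun ⟨j, a, ha, u, h⟩ => ?_, fun h => ⟨i, h⟩⟩⟩
    obtain ⟨a', ha', u', h'⟩ := eqP j i a ha u
    exact ⟨a', ha', u', fun k => (h' k).trans (h k)⟩
  have inv : ∀ g : Fin d → ℤ, ∀ p, p ∈ P ↔ (fun k => p k + M * g k) ∈ P := by
    intro g
    let S : AddSubgroup (Fin d → ℤ) :=
      { carrier := {g | ∀ p, p ∈ P ↔ (fun k => p k + M * g k) ∈ P}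
        zero_mem' := fun p => by simp
        add_mem' := fun {x y} hx hy p => by
          rw [hx p, hy]; simp [mul_add, add_assoc]
        neg_mem' := fun {x} hx p => by
          rw [hx fun k => p k + M * (-x) k]; simp }
    change g ∈ S
    rw [pi_eq_sum_univ' g]
    refine S.sum_mem fun l _ => S.zsmul_mem (fun p => ?_) _
    rw [hP (⟨f₀, hf₀⟩, none), hP (⟨f₀, hf₀⟩, some l)]
    simp [ht, mul_add, ← add_assoc]
  obtain ⟨a₀, ha₀, -⟩ := den (⟨f₀, hf₀⟩, none) 0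
  have hp₀ : ∀ i, ∀ g : Fin d → ℤ, ∃ a ∈ A, ∃ u, ∀ k, a k + M * t i u k = a₀ k + M * g k := by
    intro i g
    have := (inv (g - t i u₀) _).1 ((hP i fun k => a₀ k + M * t i u₀ k).2 ⟨a₀, ha₀, u₀, fun _ => rfl⟩)
    obtain ⟨a, ha, u, h⟩ := (hP i _).1 this
    exact ⟨a, ha, u, fun k => by rw [h k]; simp only [Pi.sub_apply]; push_cast; ring⟩
  have hgrid : ∀ a ∈ A, ∃ g : Fin d → ℤ, ∀ k, a k = a₀ k + M * g k := by
    intro a ha
    obtain ⟨a', ha', u, h⟩ := hp₀ (⟨f₀, hf₀⟩, none)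
      fun k => ⌊(a k - a₀ k) / M⌋ + t (⟨f₀, hf₀⟩, none) u₀ k
    have h1 := sep a' ha' a ha _ _ u u₀ fun k => by
      have h2 := (le_div_iff₀ hM1).1 (Int.floor_le ((a k - a₀ k) / M))
      have h3 := (div_lt_iff₀ hM1).1 (Int.lt_floor_add_one ((a k - a₀ k) / M))
      rw [h k]
      push_cast
      exact abs_lt.2 ⟨by linarith, by linarith⟩
    refine ⟨fun k => ⌊(a k - a₀ k) / M⌋, fun k => ?_⟩
    have h2 := (h k).symm.trans (h1 k)
    push_cast at h2
    linarith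
  obtain ⟨b, hb⟩ := hp
  have hA' : ∀ h ∈ Submodule.span ℤ (Set.range b), ∀ a ∈ A, a + h ∈ A := fun h hh a ha =>
    hb h hh ▸ Set.mem_image_of_mem (fun a => a + h) ha
  choose g hg using fun k => hgrid _ (hA' _ (Submodule.subset_span ⟨k, rfl⟩) a₀ ha₀)
  obtain ⟨N, hN, hN'⟩ := lattice_period b M g fun k l => add_left_cancel (hg k l)
  refine hap {x | (fun k => a₀ k + M * x k) ∈ A} (fun f hf hf' => ⟨fun x => ?_, ?_⟩) N hN
    fun x y hy => ?_
  · obtain ⟨a, ha, u, h⟩ := hp₀ (⟨f, hf, hf'⟩, none) x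
    refine ⟨x - f u, ?_, u, sub_add_cancel _ _⟩
    change (_ : Fin d → ℝ) ∈ A
    convert ha using 1
    funext k
    have := h k
    simp only [ht, Option.elim, add_zero, Pi.sub_apply] at this ⊢
    push_cast
    linarith
  · intro x hx y hy u u' e
    refine inj _ hx _ hy (⟨f, hf, hf'⟩, none) u u' fun k => ?_
    have : (x k : ℝ) + f u k = y k + f u' k := by exact_mod_cast congrFun e k
    simp only [ht, Option.elim, add_zero]
    linear_combination M * this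
  · change (_ : Fin d → ℝ) ∈ A
    convert hA' _ (hN' x) _ hy using 1
    funext k
    simp [mul_add, add_assoc]

end Vale.Agent.P043
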