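import Vale.Agent.P043.Deduce

/-! Every solution of the system has the required properties. -/

namespace Vale.Agent.P043

namespace Data

variable {G V : Type} [AddCommGroup G] {q : Option (V × Bool) → ℕ} {p : V → ℕ}
  [∀ k, Fact (1 < q k)] (D : Data G V q p) [Fintype V]

theorem crd_K {v β m} (hm : m ∈ D.K v β) (g)
    (h : ∀ β', ¬ (D.row (some (v, β')) g ↔ β = true)) :
    (D.crd (g - m)).2 v = (D.crd g).2 v := by
  obtain ⟨⟨h1, h2⟩, h3⟩ := hm
  have h4 : ∀ β', D.row (some (v, β')) (g - m) ↔ D.row (some (v, β')) g := fun β' =>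
    D.row_sub (by cases β' <;> simp_all [row]) g
  cases β
  · have h5 : ∀ β', D.row (some (v, β')) g := by simpa using h
    have h6 : D.σ v m - D.π v m = 0 := by simpa using h3
    simp only [crd, val, if_pos (h5 _), if_pos ((h4 _).2 (h5 _)), map_sub]
    linear_combination -h6
  · have h5 : ∀ β', ¬ D.row (some (v, β')) g := by simpa using h
    have h6 : D.σ v m = 0 := by simpa using h3
    simp only [crd, val, if_neg (h5 _), if_neg (mt (h4 _).1 (h5 _)), map_sub, h6, sub_zero]

theorem crd_ker {k m} (hm : D.ρ k m = 0) (g) : (D.crd (g - m)).1 k = (D.crd g).1 k := by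
  simp only [crd, map_sub, hm, sub_zero]

omit [Fintype V] in
theorem sum_off {ι : Type} [Fintype ι] (a b : ι → G) (k : ι) (h : ∀ k', k' ≠ k → a k' = b k') :
    ∑ i, a i = ∑ i, b i + (a k - b k) := by
  classical
  rw [← Finset.add_sum_erase _ a (Finset.mem_univ k), ← Finset.add_sum_erase _ b (Finset.mem_univ k),
    Finset.sum_congr rfl fun k' h' => h k' (Finset.ne_of_mem_erase h')]
  abel

theorem tile_update [DecidableEq V] (s : ∀ k, ZMod (q k) × ZMod (q k) → G) (k)
    (s' : ZMod (q k) × ZMod (q k) → G) (U : Idx q p) :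
    D.tile (Function.update s k s') U = D.tile s U + (s' (U.1 k) - s k (U.1 k)) := by
  simp only [tile]
  rw [sum_off _ (fun k => s k (U.1 k)) k fun k' h => by rw [Function.update_of_ne h],
    Function.update_self, add_right_comm]

theorem tile_fst [DecidableEq V] (s : ∀ k, ZMod (q k) × ZMod (q k) → G) (k) (w) (U : Idx q p) :
    D.tile s (Function.update U.1 k w, U.2) = D.tile s U + (s k w - s k (U.1 k)) := by
  simp only [tile]
  rw [sum_off _ (fun k => s k (U.1 k)) k fun k' h => by rw [Function.update_of_ne h],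
    Function.update_self, add_right_comm]

theorem tile_snd [DecidableEq V] (s : ∀ k, ZMod (q k) × ZMod (q k) → G) (v) (w) (U : Idx q p) :
    D.tile s (U.1, Function.update U.2 v w) =
      D.tile s U + (w.val • D.f v - (U.2 v).val • D.f v) := by
  simp only [tile]
  rw [sum_off (fun v' => (Function.update U.2 v w v').val • D.f v') (fun v => (U.2 v).val • D.f v)
    v fun k' h => by rw [Function.update_of_ne h], Function.update_self, add_assoc]

variable [∀ v, Fact (1 < p v)]

theorem gadget_fact {A : Set G} {u : G → Idx q p} (hu : ∀ g U, g - D.tile D.tq U ∈ A ↔ U = u g)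
    (k) (f1 : ∀ m, D.ρ k m = 0 → ∀ g, (u (g - m)).1 k = (u g).1 k)
    (hA : ∀ f : Idx q p → G, (∀ U, ∃ z, f U = D.tile D.tq U + (D.sec k z - D.tq k (U.1 k))) →
      Til D.sol f → Til A f) :
    ∃ (t : ZMod (q k ^ 2)) (s : Bool → ZMod (q k ^ 2)), ∀ β i g,
      D.ρ k g = (t, s β + io (q k) i) → D.Sens u k β g := by
  classical
  have f2 : ∀ g g', D.ρ k g = D.ρ k g' → (u g).1 k = (u g').1 k := fun g g' h => by
    rw [← f1 (g - g') (by rw [map_sub, h, sub_self]), sub_sub_cancel]
  have h0 : D.tile D.tq 0 = 0 := by simp [tile, tq_zero]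
  have key : ∀ F : ZMod (q k) × ZMod (q k) → ZMod (q k ^ 2) × ZMod (q k ^ 2), Til (gB (q k)) F →
      ∀ a ∈ D.ρ k '' A, ∀ a' ∈ D.ρ k '' A, ∀ w w', a + F w = a' + F w' → w = w' := by
    rintro F hF _ ⟨x, hx, rfl⟩ _ ⟨x', hx', rfl⟩ w w' e
    have h1 := hA (D.tile (Function.update D.tq k fun w => D.sec k (F w)))
      (fun U => ⟨_, D.tile_update _ _ _ U⟩) (D.til_tile (fun k₁ k₂ h y => ?_) fun k₁ => ?_)
    · have h2 : (u (x + D.sec k (F w) - D.sec k (F w'))).1 k = 0 := by
        rw [f2 _ x' (by rw [map_sub, map_add, ρ_sec, ρ_sec, e, add_sub_cancel_right]),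
          ← (hu x' 0).1 (by rwa [h0, sub_zero])]
        rfl
      have h3 := h1.2 x hx _ ((hu (x + D.sec k (F w) - D.sec k (F w')) _).2 rfl)
        (Function.update (0 : Idx q p).1 k w, (0 : Idx q p).2)
        (Function.update (u (x + D.sec k (F w) - D.sec k (F w'))).1 k w',
          (u (x + D.sec k (F w) - D.sec k (F w'))).2) (by
          rw [tile_fst, tile_fst, tile_update, tile_update]
          simp only [Function.update_self, h0, h2, tq_zero, Prod.fst_zero, Pi.zero_apply]
          abel)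
      simpa using congrFun (congrArg Prod.fst h3) k
    · by_cases h' : k₂ = k
      · subst h'
        rw [Function.update_self, D.ρ_sec' h]
      · rw [Function.update_of_ne h', D.ρ_tq' h]
    · by_cases h' : k₁ = k
      · subst h'
        simpa only [Function.update_self, ρ_sec] using hF
      · simpa only [Function.update_of_ne h', ρ_tq] using til_gB
  obtain ⟨t, s, h⟩ := gadget (B := D.ρ k '' A) (c := fun z => (u (D.sec k z)).1 k)
    (fun z => ⟨_, (hu (D.sec k z) _).2 rfl, by
      rw [map_sub, D.ρ_tile fun k k' h => D.ρ_tq' h, ρ_sec, ρ_tq]⟩)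
    (fun φ => key _ (til_col φ)) (key _ til_anti)
  refine ⟨t, s, fun β i g hg e => h β i ?_⟩
  rw [f2 (D.sec k (_ - _)) (g - D.dd k β) (by rw [ρ_sec, map_sub, hg, ρ_dd]),
    f2 (D.sec k _) g (by rw [ρ_sec, hg]), e]

theorem aper (hG : ∀ K : AddSubgroup G, K.FG) (h2 : q none = 2) (hS : D.Sud) : Aper G := by
  classical
  choose g1 hg1 using fun k => hG (D.ρ k).ker
  choose g2 hg2 using fun v β => hG (D.K v β)
  obtain ⟨S, s0, s1, s2, s3, s4, s5, s6, s7⟩ : ∃ S : Finset G, 0 ∈ S ∧ (∀ k, g1 k ⊆ S) ∧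
      (∀ v β, g2 v β ⊆ S) ∧ (∀ k β, D.dd k β ∈ S) ∧ (∀ k, D.r k ∈ S) ∧ (∀ v, D.lam v ∈ S) ∧
      (∀ v, p v • D.f v ∈ S) ∧ ∀ k z y, D.sec k z - D.tq k y ∈ S := by
    have e : ∀ g : G, ∀ᶠ S : Finset G in Filter.atTop, g ∈ S := fun g =>
      (Filter.eventually_ge_atTop {g}).mono fun S hS => hS (Finset.mem_singleton_self _)
    refine Filter.Eventually.exists (f := Filter.atTop) ?_
    simp only [Filter.eventually_and, Filter.eventually_all]
    exact ⟨e _, fun _ => Filter.eventually_ge_atTop _, fun _ _ => Filter.eventually_ge_atTop _,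
      fun _ _ => e _, fun _ => e _, fun _ => e _, fun _ => e _, fun _ _ _ => e _⟩
  obtain ⟨W, w1, w2, w3, w4⟩ := ((win_eventually (D.tile D.tq) S Unit).and
    ((win_eventually (D.tile D.tq) S Bool).and ((win_eventually (D.tile D.tq) S (Option Bool)).and
    (win_eventually (D.tile D.tq) S V)))).exists
  have t0 : ∀ U, D.tile D.tq U ∈ W := fun U => by simpa using w1 U (fun _ => 0) fun _ => s0
  have t1 : Til D.sol (D.tile D.tq) :=
    D.til_tile (fun k k' h => D.ρ_tq' h) fun k => by simpa only [ρ_tq] using til_gB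
  refine ⟨Idx q p, inferInstance, W, D.sol, ⟨_, t0, t1⟩, fun A hA N hN hp => ?_⟩
  obtain ⟨u, hu⟩ := (hA _ t0 t1).coord
  have T1 : ∀ v, ∀ m ∈ S, (∀ g, (D.crd (g - m)).2 v = (D.crd g).2 v) →
      ∀ g, (u (g - m)).2 v = (u g).2 v := fun v m hm h g =>
    ZMod.val_injective _ (transfer_one D.crd_spec hu hA s0 w1 (fun U => (U.2 v).val) hm
      (fun g => by rw [h]) g)
  have f1 : ∀ k m, D.ρ k m = 0 → ∀ g, (u (g - m)).1 k = (u g).1 k := by
    intro k m hm g
    refine inv_of_gen (hg1 k) (fun _ => True) (fun _ _ _ _ => trivial) (fun g => (u g).1 k)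
      (fun m hm g _ => ?_) m hm g trivial
    have h : D.ρ k m = 0 := by
      rw [← AddMonoidHom.mem_ker, ← hg1]
      exact AddSubgroup.subset_closure hm
    exact Prod.ext
      (ZMod.val_injective _ (transfer_one D.crd_spec hu hA s0 w1 (fun U => (U.1 k).1.val) (s1 k hm)
        (fun g => by rw [D.crd_ker h]) g))
      (ZMod.val_injective _ (transfer_one D.crd_spec hu hA s0 w1 (fun U => (U.1 k).2.val) (s1 k hm)
        (fun g => by rw [D.crd_ker h]) g))
  refine Facts.deduce (D := D) (u := u) ⟨fun k => D.gadget_fact hu k (f1 k) fun f hf => hA f ?_,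
    fun v v' β h => T1 v _ (s4 _) fun g => D.crd_r g fun e => h (congrArg Prod.fst e),
    fun v hv => T1 v _ (s5 _) fun g => ?_, fun v g => ?_, fun v β => ?_, fun γ hγ g => ?_,
    fun β g hg => ?_⟩ h2 hS N hN fun g g' => ?_
  · intro U
    obtain ⟨z, hz⟩ := hf U
    simpa [hz] using w1 U (fun _ => D.sec k z - D.tq k (U.1 k)) fun _ => s7 _ _ _
  · refine D.crd_sub (D.bl v hv) (fun k => Or.inl ?_) (by simp [D.σr, D.σl])
      (by simp [D.πr, D.πl]) g (by simp [row, D.ρr', D.ρl])
    by_cases h : k = none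
    · subst h
      simp [D.ρr, D.ρl]
    · simp [D.ρr' _ _ h, D.ρl]
  · have h1 := T1 v _ (s6 v) fun g => D.crd_sub (nsmul_mem (D.f_inv v v) _)
      (fun k => Or.inl (by simp [D.ρf])) (by simp [D.σf]) (by simp [D.πf]) g (by simp [row, D.ρf])
    have h3 : ∀ n : ℕ, ((u g).2 v - 1).val + 1 = ((u g).2 v).val + n →
        (u (g - D.f v + n • D.f v)).2 v = (u g).2 v - 1 := fun n hn => by
      rw [← (hu _ ((u g).1, Function.update (u g).2 v ((u g).2 v - 1))).1]
      · simp
      have := congrArg (· • D.f v) hn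
      simp only [add_smul, one_smul] at this
      rw [tile_snd, show g - D.f v + n • D.f v - (D.tile D.tq (u g) + (((u g).2 v - 1).val • D.f v -
        ((u g).2 v).val • D.f v)) = g - D.tile D.tq (u g) by rw [eq_sub_of_add_eq this]; abel]
      exact (hu _ _).2 rfl
    have h4 := Fact.out (p := 1 < p v)
    by_cases h : (u g).2 v = 0
    · have h5 : ((u g).2 v - 1).val + 1 = ((u g).2 v).val + p v := by
        rw [h, zero_sub, ZMod.neg_val, if_neg one_ne_zero, ZMod.val_one, ZMod.val_zero]
        omega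
      rw [← h3 _ h5, ← h1 (_ + _), add_sub_cancel_right]
    · have h5 := (ZMod.val_eq_zero _).not.2 h
      simpa using h3 0 (by rw [ZMod.val_sub (by rw [ZMod.val_one]; omega), ZMod.val_one]; omega)
  · have hk : ∀ m ∈ D.K v β, ∀ β', D.ρ (some (v, β')) m = 0 := by
      rintro m ⟨⟨h1, h2⟩, -⟩ (_ | _)
      exacts [h1, h2]
    refine inv_of_gen (hg2 v β) _ (fun g hg m hm β' => ?_) (fun g => (u g).2 v) fun m hm g hg => ?_
    · rw [Sens, sub_right_comm, f1 _ _ (hk m hm β'), f1 _ _ (hk m hm β')]
      exact hg β'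
    · have hm' : m ∈ D.K v β := hg2 v β ▸ AddSubgroup.subset_closure hm
      obtain ⟨_ | β', h⟩ := transfer D.crd_spec hu hA s0 w1 w3
        (fun l U => l.elim (U.2 v).val fun β' => (U.1 (some (v, β'))).2.val)
        (fun l => l.elim m fun β' => D.dd (some (v, β')) β)
        (by rintro (_ | β'); exacts [s2 v β hm, s3 _ _]) (by
          rintro (_ | β₁) (_ | β₂) h g
          · exact absurd rfl h
          · exact congrArg ZMod.val (D.crd_dd (D.bd v β₂) β g)
          · exact congrArg (fun y => y.2.val) (D.crd_ker (hk m hm' β₁) g)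
          · exact congrArg (fun y => y.2.val) (D.crd_ker (D.ρ_dd' (k := some (v, β₁))
              (k' := some (v, β₂)) (by simpa using h) β) g))
        (fun g => by
          by_cases h : ∃ β', (D.row (some (v, β')) g ↔ β = true)
          · obtain ⟨β', h⟩ := h
            exact ⟨some β', congrArg ZMod.val (D.crd_eta _ β g h)⟩
          · exact ⟨none, congrArg ZMod.val (D.crd_K hm' g (not_exists.1 h))⟩) g
      · exact ZMod.val_injective _ h
      · exact absurd (ZMod.val_injective _ h) (hg β')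
  · have : Nonempty V := ⟨D.star⟩
    obtain ⟨v, h⟩ := transfer D.crd_spec hu hA s0 w1 w4 (fun v U => (U.2 v).val)
      (fun v => D.r (some (v, γ v))) (fun _ => s4 _)
      (fun v v' h g => congrArg ZMod.val (D.crd_r g fun e => h (congrArg Prod.fst e)))
      (fun g => by
        obtain ⟨v, h⟩ := Function.ne_iff.1 fun e : D.b (D.base g) = γ => hγ ⟨_, e⟩
        exact ⟨v, congrArg ZMod.val (D.crd_r g fun e => h (congrArg Prod.snd e))⟩) g
    exact ⟨v, ZMod.val_injective _ h⟩
  · obtain ⟨_ | _, h⟩ := transfer D.crd_spec hu hA s0 w1 w2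
      (fun l U => bif l then (U.1 none).2.val else (U.2 D.star).val)
      (fun l => bif l then D.dd none β else D.r (some (D.star, β)))
      (by rintro (_ | _); exacts [s4 _, s3 _ _]) (by
        rintro (_ | _) (_ | _) h g
        · exact absurd rfl h
        · exact congrArg ZMod.val (D.crd_dd D.bd0 β g)
        · exact congrArg (fun y => y.2.val) (D.crd_ker (D.ρr' none (some _) (by simp)) g)
        · exact absurd rfl h)
      (fun g => by
        by_cases h : D.row none g ↔ β = true
        · exact ⟨true, congrArg ZMod.val (D.crd_eta _ β g h)⟩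
        · refine ⟨false, congrArg ZMod.val (D.crd_r g fun e => h ?_)⟩
          rw [← (Prod.mk.inj e).2, D.bstar, ← D.row_base, decide_eq_true_iff]
          rfl) g
    · exact ZMod.val_injective _ h
    · exact absurd (ZMod.val_injective _ h) hg
  · refine ((hu _ _).1 ?_).symm
    rw [add_sub_right_comm]
    exact hp g' _ ((hu _ _).2 rfl)

end Data

end Vale.Agent.P043
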