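import Vale.Agent.P043.Vars

/-! Lifting aperiodic systems to `ℤ^d`. -/

namespace Vale.Agent.P043

theorem Til.comap {G H U : Type} [AddCommGroup G] [AddCommGroup H] (π : H →+ G) {A : Set G}
    {f : U → H} (h : Til A fun u => π (f u)) : Til (π ⁻¹' A) f := by
  refine ⟨fun g => ?_, fun a ha a' ha' u u' e => h.2 _ ha _ ha' u u' (by rw [← map_add, e, map_add])⟩
  obtain ⟨a, ha, u, e⟩ := h.1 (π g)
  exact ⟨g - f u, by rwa [Set.mem_preimage, map_sub, ← e, add_sub_cancel_right], u, by simp⟩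

theorem Aper.lift {G H : Type} [AddCommGroup G] [AddCommGroup H] (π : H →+ G)
    (hπ : Function.Surjective π) (hK : π.ker.FG) (h : Aper G) : Aper H := by
  classical
  obtain ⟨U, hU, W, A₀, ⟨f₀, hf₀, ht₀⟩, h⟩ := h
  obtain ⟨S, hS⟩ := hK
  choose s hs using hπ
  have hW : ∀ w ∈ W, ∀ l ∈ insert 0 (S ∪ S.image Neg.neg), s w + l ∈
      Finset.image₂ (· + ·) (W.image s) (insert 0 (S ∪ S.image Neg.neg)) := fun w hw l hl =>
    Finset.mem_image₂_of_mem (Finset.mem_image_of_mem s hw) hl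
  have hW0 : ∀ w ∈ W, s w ∈ Finset.image₂ (· + ·) (W.image s) (insert 0 (S ∪ S.image Neg.neg)) :=
    fun w hw => by simpa using hW w hw 0 (Finset.mem_insert_self _ _)
  refine ⟨U, hU, _, π ⁻¹' A₀, ⟨fun u => s (f₀ u), fun u => hW0 _ (hf₀ u),
    Til.comap π (by simpa [hs] using ht₀)⟩, fun A hA N hN hp => ?_⟩
  have h1 : ∀ f : U → G, (∀ u, f u ∈ W) → Til A₀ f → Til A fun u => s (f u) := fun f hf ht =>
    hA _ (fun u => hW0 _ (hf u)) (Til.comap π (by simpa [hs] using ht))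
  obtain ⟨-, -, u0, -⟩ := ht₀.1 0
  have h2 : ∀ l ∈ S ∪ S.image Neg.neg, ∀ a ∈ A, a + l ∈ A := by
    intro l hl a ha
    have hl0 : π l = 0 := by
      have : ∀ l ∈ S, π l = 0 := fun l hl => by
        rw [← AddMonoidHom.mem_ker, ← hS]
        exact AddSubgroup.subset_closure hl
      rcases Finset.mem_union.1 hl with h | h
      · exact this l h
      · obtain ⟨l', h', rfl⟩ := Finset.mem_image.1 h
        rw [map_neg, this l' h', neg_zero]
    have h3 := hA (fun u => s (f₀ u) + if u = u0 then l else 0)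
      (fun u => hW _ (hf₀ u) _ (by split_ifs <;> simp [hl])) (Til.comap π (by
        have : ∀ u, π (s (f₀ u) + if u = u0 then l else 0) = f₀ u := fun u => by
          split_ifs <;> simp [hs, hl0]
        simpa only [this] using ht₀))
    obtain ⟨a', ha', u, e⟩ := (h1 f₀ hf₀ ht₀).1 (a + l + s (f₀ u0))
    by_cases hu : u = u0
    · rw [hu] at e
      rwa [← add_right_cancel e]
    · exact absurd (h3.2 a' ha' a ha u u0 (by simp only [hu, if_false, if_true, add_zero, e]; abel)) hu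
  have h3 : ∀ l ∈ π.ker, (∀ a ∈ A, a + l ∈ A) ∧ ∀ a ∈ A, a + -l ∈ A := by
    intro l hl
    rw [← hS] at hl
    induction hl using AddSubgroup.closure_induction with
    | mem l hl =>
      exact ⟨h2 l (Finset.mem_union_left _ hl),
        h2 _ (Finset.mem_union_right _ (Finset.mem_image_of_mem _ hl))⟩
    | zero => simp
    | add l l' _ _ ih ih' =>
      exact ⟨fun a ha => by rw [← add_assoc]; exact ih'.1 _ (ih.1 a ha),
        fun a ha => by rw [neg_add, ← add_assoc]; exact ih'.2 _ (ih.2 a ha)⟩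
    | neg l _ ih => exact ⟨ih.2, by simpa using ih.1⟩
  refine h (π '' A) (fun f hf ht => ⟨fun g => ?_, ?_⟩) N hN ?_
  · obtain ⟨a, ha, u, e⟩ := (h1 f hf ht).1 (s g)
    exact ⟨π a, ⟨a, ha, rfl⟩, u, by simpa [hs] using congrArg π e⟩
  · rintro _ ⟨a, ha, rfl⟩ _ ⟨a', ha', rfl⟩ u u' e
    refine (h1 f hf ht).2 a ha _ ((h3 (a + s (f u) - (a' + s (f u'))) ?_).1 a' ha') u u' (by abel)
    simp [AddMonoidHom.mem_ker, hs, e]
  · rintro g _ ⟨a, ha, rfl⟩
    exact ⟨_, hp (s g) a ha, by simp [hs]⟩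

theorem crt {ι : Type} [Finite ι] (q : ι → ℕ) (hq : ∀ n, 2 ≤ q n)
    (hc : Pairwise fun n n' => (q n).Coprime (q n')) (y : ∀ n, ZMod (q n)) :
    ∃ z : ℤ, ∀ n, (z : ZMod (q n)) = y n := by
  have := Fintype.ofFinite ι
  obtain ⟨k, hk⟩ := Nat.chineseRemainderOfFinset (fun n => (y n).val) q Finset.univ
    (fun n _ => by have := hq n; omega) fun n _ n' _ h => hc h
  refine ⟨k, fun n => ?_⟩
  have : NeZero (q n) := ⟨by have := hq n; omega⟩
  rw [Int.cast_natCast, (ZMod.natCast_eq_natCast_iff _ _ _).2 (hk n (Finset.mem_univ n)),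
    ZMod.natCast_zmod_val]

theorem aper_int (d : ℕ) (hd : 4 ≤ d) : Aper (Fin d → ℤ) := by
  obtain ⟨e, he⟩ := Countable.exists_injective_nat Ix
  obtain ⟨q, h4, hq, hc⟩ : ∃ q : Ix → ℕ, q none = 4 ∧ (∀ n, 2 ≤ q n) ∧
      Pairwise fun n n' => (q n).Coprime (q n') := by
    have h2 : ∀ k, Nat.Coprime 4 (Nat.fermatNumber k) := fun k =>
      Nat.Coprime.pow_left 2 ((Nat.coprime_two_left).2 (Nat.odd_fermatNumber k))
    refine ⟨fun n => n.elim 4 fun p => Nat.fermatNumber (e (some p)), rfl, ?_, ?_⟩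
    · rintro (_ | p)
      · exact (by decide : 2 ≤ 4)
      · exact (Nat.three_le_fermatNumber _).trans' (by decide)
    · rintro (_ | p) (_ | p') h
      · exact absurd rfl h
      · exact h2 _
      · exact (h2 _).symm
      · exact Nat.coprime_fermatNumber_fermatNumber (he.ne h)
  let π : (Fin d → ℤ) →+ (ℤ × ℤ) × ∀ n, ZMod (q n) × ZMod (q n) :=
    { toFun := fun x => ((x ⟨0, by omega⟩, x ⟨1, by omega⟩),
        fun _ => ((x ⟨2, by omega⟩ : ℤ), (x ⟨3, by omega⟩ : ℤ)))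
      map_zero' := by ext <;> simp
      map_add' := fun x y => by ext <;> simp }
  refine (aper_main q h4 hq).lift π ?_ ?_
  · rintro ⟨⟨i, j⟩, y⟩
    obtain ⟨z, hz⟩ := crt q hq hc fun n => (y n).1
    obtain ⟨w, hw⟩ := crt q hq hc fun n => (y n).2
    refine ⟨fun k => if k.val = 0 then i else if k.val = 1 then j else if k.val = 2 then z else w,
      ?_⟩
    ext <;> simp [π, hz, hw]
  · exact (Submodule.fg_iff_addSubgroup_fg (AddSubgroup.toIntSubmodule π.ker)).1
      (IsNoetherian.noetherian _)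

end Vale.Agent.P043
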