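import Mathlib

/-! A 2-adic Sudoku without periodic solutions. -/

namespace Vale.Agent.P043

/-- Level parity and unit part. -/
noncomputable def lu (m : ℤ) : ZMod 2 × ZMod 8 :=
  if m = 0 then (0, 1) else
    ((padicValInt 2 m : ZMod 2), ((m / 2 ^ padicValInt 2 m : ℤ) : ZMod 8))

theorem lu_odd (s : ℕ) {u : ℤ} (hu : Odd u) : lu (2 ^ s * u) = ((s : ZMod 2), (u : ZMod 8)) := by
  have h0 : u ≠ 0 := by rintro rfl; simp at hu
  have h1 : padicValInt 2 (2 ^ s * u) = s := by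
    have : Fact (Nat.Prime 2) := ⟨Nat.prime_two⟩
    have h2 : padicValInt 2 u = 0 := padicValInt.eq_zero_of_not_dvd (by
      rw [Nat.cast_ofNat, ← even_iff_two_dvd, Int.not_even_iff_odd]; exact hu)
    have := padicValInt.mul (p := 2) (a := 2 ^ s) (b := u) (by positivity) h0
    rw [this, h2, add_zero]
    unfold padicValInt
    simp [Int.natAbs_pow]
  unfold lu
  rw [if_neg (by positivity), h1, Int.mul_ediv_cancel_left _ (by positivity)]

/-- The Sudoku rule for a word of length eight. -/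
def Rule (w : ℤ → ZMod 2 × ZMod 8) : Prop :=
  ∃ (a b : ℤ) (s : ZMod 2), (a % 2 = 1 ∨ b % 2 = 1) ∧ ∀ n : ℤ, 0 ≤ n → n < 8 →
    ((a * n + b) % 2 = 1 → w n = (s, ((a * n + b : ℤ) : ZMod 8))) ∧
    ((a * n + b) % 4 = 2 → w n = (s + 1, (((a * n + b) / 2 : ℤ) : ZMod 8)))

theorem exists_split (i j : ℤ) (h : i ≠ 0 ∨ j ≠ 0) :
    ∃ (s : ℕ) (a b : ℤ), i = 2 ^ s * a ∧ j = 2 ^ s * b ∧ (a % 2 = 1 ∨ b % 2 = 1) := by
  induction hN : i.natAbs + j.natAbs using Nat.strong_induction_on generalizing i j with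
  | _ N ih =>
    by_cases h1 : i % 2 = 1 ∨ j % 2 = 1
    · exact ⟨0, i, j, by simp, by simp, h1⟩
    · obtain ⟨i', rfl⟩ : ∃ i', i = 2 * i' := ⟨i / 2, by omega⟩
      obtain ⟨j', rfl⟩ : ∃ j', j = 2 * j' := ⟨j / 2, by omega⟩
      obtain ⟨s, a, b, rfl, rfl, h2⟩ := ih _ (by omega) i' j' (by omega) rfl
      exact ⟨s + 1, a, b, by ring, by ring, h2⟩

theorem rule_lu (i j : ℤ) : Rule fun n => lu (i * n + j) := by
  by_cases h : i ≠ 0 ∨ j ≠ 0
  · obtain ⟨s, a, b, rfl, rfl, h2⟩ := exists_split i j h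
    refine ⟨a, b, s, h2, fun n _ _ => ⟨fun h3 => ?_, fun h3 => ?_⟩⟩
    · rw [← lu_odd s (Int.odd_iff.2 h3)]
      exact congrArg lu (by ring)
    · have := lu_odd (s + 1) (u := (a * n + b) / 2) (Int.odd_iff.2 (by omega))
      rw [Nat.cast_succ] at this
      rw [← this]
      have h4 : a * n + b = 2 * ((a * n + b) / 2) := by omega
      exact congrArg lu (by linear_combination 2 ^ s * h4)
  · rw [not_or, not_not, not_not] at h
    obtain ⟨rfl, rfl⟩ := h
    exact ⟨0, 1, 0, Or.inr rfl, fun n _ _ => ⟨fun _ => by simp [lu], fun h3 => by omega⟩⟩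

theorem cast8 {x y : ℤ} : (x : ZMod 8) = (y : ZMod 8) ↔ (y - x) % 8 = 0 := by
  rw [ZMod.intCast_eq_intCast_iff_dvd_sub]
  exact ⟨fun h => Int.emod_eq_zero_of_dvd h, fun h => Int.dvd_of_emod_eq_zero h⟩

theorem lin {R : Type} [CommRing R] (f : ℤ → R) (c : R) (h : ∀ m, f (m + 1) = f m + c) (m : ℤ) :
    f m = f 0 + c * m := by
  induction m using Int.induction_on with
  | zero => simp
  | succ k ih => rw [h, ih]; push_cast; ring
  | pred k ih =>
    have := h (-(k : ℤ) - 1)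
    rw [sub_add_cancel, ih] at this
    push_cast at this ⊢
    linear_combination -this

theorem arith (a c t : ℤ) (h : a % 2 = 1 ∨ c % 2 = 1) (e0 : c % 2 = 1 → (c - t) % 8 = 0)
    (e2 : (c + 2 * a) % 2 = 1 → (c + 2 * a - (t + 2)) % 8 = 0)
    (f0 : c % 4 = 2 → (c / 2 - t) % 8 = 0)
    (f2 : (c + 2 * a) % 4 = 2 → ((c + 2 * a) / 2 - (t + 2)) % 8 = 0)
    (f4 : (c + 4 * a) % 4 = 2 → ((c + 4 * a) / 2 - (t + 4)) % 8 = 0)
    (f6 : (c + 6 * a) % 4 = 2 → ((c + 6 * a) / 2 - (t + 6)) % 8 = 0) :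
    c % 2 = 1 ∧ a % 4 = 1 := by
  by_cases hc : c % 2 = 1
  · have h1 := e0 hc
    clear e0 f0 f2 f4 f6
    have h2 := e2 (by omega)
    clear e2
    omega
  · exfalso
    clear e0 e2
    have ha : a % 2 = 1 := h.resolve_right hc
    by_cases h4 : c % 4 = 2
    · have h1 := f0 h4
      have h5 : (c + 4 * a) % 4 = 2 := by
        clear f0 f2 f4 f6
        omega
      have h2 := f4 h5
      clear f0 f2 f4 f6
      omega
    · have h5 : (c + 2 * a) % 4 = 2 ∧ (c + 6 * a) % 4 = 2 := by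
        clear f0 f2 f4 f6
        omega
      have h1 := f2 h5.1
      have h2 := f6 h5.2
      clear f0 f2 f4 f6
      omega

theorem slope_one (F : ℤ → ℤ → ZMod 2 × ZMod 8) (hR : ∀ i j : ℤ, Rule fun n => F n (i * n + j))
    (s : ZMod 2) (h : ∀ n : ℤ, 0 ≤ n → n < 8 → ∀ m : ℤ, m % 2 = 1 → F n m = (s, (m : ZMod 8)))
    (j : ℤ) : ∃ a b : ℤ, a % 4 = 1 ∧ (∀ n : ℤ, 0 ≤ n → n < 8 → (n + j) % 4 = 2 →
      F n (n + j) = (s + 1, (((a * n + b) / 2 : ℤ) : ZMod 8))) := by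
  obtain ⟨a, b, s', hab, hw⟩ := hR 1 j
  simp only [one_mul] at hw
  have e : ∀ n : ℤ, 0 ≤ n → n < 8 → (n + j) % 2 = 1 → (a * n + b) % 2 = 1 →
      s = s' ∧ (a * n + b - (n + j)) % 8 = 0 := fun n h0 hn h1 h2 => by
    have h3 := (hw n h0 hn).1 h2
    rwa [h n h0 hn _ h1, Prod.mk.injEq, cast8] at h3
  have e' : ∀ n : ℤ, 0 ≤ n → n < 8 → (n + j) % 2 = 1 → (a * n + b) % 4 = 2 →
      ((a * n + b) / 2 - (n + j)) % 8 = 0 := fun n h0 hn h1 h2 => by
    have h3 := (hw n h0 hn).2 h2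
    rw [h n h0 hn _ h1, Prod.mk.injEq, cast8] at h3
    exact h3.2
  have key0 : ∀ n : ℤ, 0 ≤ n → n < 2 → (n + j) % 2 = 1 → (a % 2 = 1 ∨ (a * n + b) % 2 = 1) →
      s = s' ∧ a % 4 = 1 ∧ (a * n + b - (n + j)) % 8 = 0 := by
    intro n h0 hn h1 h2
    have e1 := e n (by omega) (by omega) (by omega)
    have e3 := e (n + 2) (by omega) (by omega) (by omega)
    have f1 := e' n (by omega) (by omega) (by omega)
    have f3 := e' (n + 2) (by omega) (by omega) (by omega)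
    have f5 := e' (n + 4) (by omega) (by omega) (by omega)
    have f7 := e' (n + 6) (by omega) (by omega) (by omega)
    have r : ∀ k : ℤ, a * (n + k) + b = a * n + b + k * a := fun k => by ring
    have r' : ∀ k : ℤ, n + k + j = n + j + k := fun k => by ring
    rw [r, r'] at e3 f3 f5 f7
    obtain ⟨h3, h4⟩ := arith a _ _ h2 (fun h => (e1 h).2) (fun h => (e3 h).2) f1 f3 f5 f7
    exact ⟨(e1 h3).1, h4, (e1 h3).2⟩
  have key : s = s' ∧ a % 4 = 1 ∧ (((b - j) % 8 = 0 ∧ j % 2 = 1) ∨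
      ((a + b - (1 + j)) % 8 = 0 ∧ j % 2 = 0)) := by
    rcases Int.emod_two_eq_zero_or_one j with hj | hj
    · obtain ⟨h1, h2, h3⟩ := key0 1 (by omega) (by omega) (by omega) (by omega)
      exact ⟨h1, h2, by omega⟩
    · obtain ⟨h1, h2, h3⟩ := key0 0 (by omega) (by omega) (by omega) (by omega)
      exact ⟨h1, h2, by omega⟩
  clear e e' key0
  obtain ⟨rfl, h1, h2⟩ := key
  refine ⟨a, b, h1, fun n h0 hn h3 => (hw n h0 hn).2 ?_⟩
  interval_cases n <;> omega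

/-- One step of the descent. -/
theorem step (F : ℤ → ℤ → ZMod 2 × ZMod 8) (hR : ∀ i j : ℤ, Rule fun n => F n (i * n + j))
    (s : ZMod 2) (h : ∀ n : ℤ, 0 ≤ n → n < 8 → ∀ m : ℤ, m % 2 = 1 → F n m = (s, (m : ZMod 8))) :
    ∃ α γ : ℤ, ∀ n : ℤ, 0 ≤ n → n < 8 → ∀ m : ℤ, m % 2 = 1 →
      F n (2 * (m + α * n + γ)) = (s + 1, (m : ZMod 8)) := by
  have K1 : ∀ n : ℤ, 0 ≤ n → n < 8 → ∀ m : ℤ, m % 4 = 2 → (F n m).1 = s + 1 := by
    intro n h0 hn m hm
    obtain ⟨a, b, -, h2⟩ := slope_one F hR s h (m - n)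
    have := h2 n h0 hn (by omega)
    rw [add_sub_cancel] at this
    rw [this]
  have K2 : ∀ n : ℤ, 0 ≤ n → n < 4 → ∀ m : ℤ, m % 4 = 2 →
      (F (n + 4) (m + 4)).2 = (F n m).2 + 2 := by
    intro n h0 hn m hm
    obtain ⟨a, b, h1, h2⟩ := slope_one F hR s h (m - n)
    have h3 := h2 n h0 (by omega) (by omega)
    have h4 := h2 (n + 4) (by omega) (by omega) (by omega)
    rw [add_sub_cancel] at h3
    rw [show n + 4 + (m - n) = m + 4 by ring, show a * (n + 4) + b = a * n + b + 4 * a by ring] at h4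
    rw [h3, h4]
    have : (((a * n + b + 4 * a) / 2 : ℤ) : ZMod 8) = (((a * n + b) / 2 + 2 : ℤ) : ZMod 8) :=
      cast8.2 (by omega)
    rw [this]
    push_cast
    rfl
  have K3 : ∀ m : ℤ, m % 4 = 2 → ∃ a b : ℤ, a % 2 = 0 ∧ b % 2 = 1 ∧ ∀ n : ℤ, 0 ≤ n → n < 8 →
      (F n m).2 = ((a * n + b : ℤ) : ZMod 8) := by
    intro m hm
    obtain ⟨a, b, s', hab, hw⟩ := hR 0 m
    simp only [zero_mul, zero_add] at hw
    have e : ∀ n : ℤ, 0 ≤ n → n < 8 → (a * n + b) % 2 = 1 → s + 1 = s' := fun n h0 hn h1 => by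
      rw [← K1 n h0 hn m hm, (hw n h0 hn).1 h1]
    have e' : ∀ n : ℤ, 0 ≤ n → n < 8 → (a * n + b) % 4 = 2 → s + 1 = s' + 1 :=
      fun n h0 hn h1 => by rw [← K1 n h0 hn m hm, (hw n h0 hn).2 h1]
    have ha : a % 2 = 0 := by
      by_contra ha
      have h1 : s + 1 = s' := by
        by_cases hb : b % 2 = 1
        · exact e 0 (by omega) (by omega) (by omega)
        · exact e 1 (by omega) (by omega) (by omega)
      have h2 : s + 1 = s' + 1 := by
        have : (a * 0 + b) % 4 = 2 ∨ (a * 1 + b) % 4 = 2 ∨ (a * 2 + b) % 4 = 2 ∨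
          (a * 3 + b) % 4 = 2 := by omega
        rcases this with h2 | h2 | h2 | h2 <;> exact e' _ (by omega) (by omega) h2
      rw [h1] at h2
      exact absurd h2 (by generalize s' = t; revert t; decide)
    refine ⟨a, b, ha, by omega, fun n h0 hn => ?_⟩
    rw [(hw n h0 hn).1 (by interval_cases n <;> omega)]
  have K4 : ∀ n : ℤ, 0 ≤ n → n < 4 → ∀ m : ℤ, m % 4 = 2 → (F (n + 4) m).2 = (F n m).2 := by
    intro n h0 hn m hm
    obtain ⟨a, b, h1, -, h2⟩ := K3 m hm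
    rw [h2 n h0 (by omega), h2 (n + 4) (by omega) (by omega), cast8]
    rw [show a * (n + 4) + b = a * n + b + 4 * a by ring]
    omega
  have K5 : ∀ n : ℤ, 0 ≤ n → n < 8 → ∀ m : ℤ, m % 4 = 2 → (F n (m + 4)).2 = (F n m).2 + 2 := by
    intro n h0 hn m hm
    by_cases h4 : n < 4
    · rw [← K4 n h0 h4 _ (by omega), K2 n h0 h4 m hm]
    · obtain ⟨n, rfl⟩ : ∃ n', n = n' + 4 := ⟨n - 4, by ring⟩
      rw [K2 n (by omega) (by omega) m hm, K4 n (by omega) (by omega) m hm]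
  obtain ⟨a, b, ha, hb, h2⟩ := K3 2 rfl
  refine ⟨-a, 1 - b, fun n h0 hn m hm => ?_⟩
  obtain ⟨t, ht⟩ : ∃ t, m + -a * n + (1 - b) = 1 + 2 * t :=
    ⟨(m + -a * n + (1 - b)) / 2, by interval_cases n <;> omega⟩
  have h3 := lin (fun t => (F n (2 + 4 * t)).2) 2 (fun t => by
    rw [← K5 n h0 hn _ (by omega)]; congr 2; ring) t
  simp only [mul_zero, add_zero, h2 n h0 hn] at h3
  rw [ht, show 2 * (1 + 2 * t) = 2 + 4 * t by ring]
  refine Prod.ext (K1 n h0 hn _ (by omega)) ?_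
  rw [h3]
  have : m = a * n + b + 2 * t := by linear_combination ht
  rw [this]
  push_cast
  rfl

theorem no_period (L : ℕ) : 0 < L → ∀ (F : ℤ → ℤ → ZMod 2 × ZMod 8) (s : ZMod 2),
    (∀ i j : ℤ, Rule fun n => F n (i * n + j)) →
    (∀ n : ℤ, 0 ≤ n → n < 8 → ∀ m : ℤ, m % 2 = 1 → F n m = (s, (m : ZMod 8))) →
    ¬ ∀ n : ℤ, 0 ≤ n → n < 8 → ∀ m, F n (m + L) = F n m := by
  induction L using Nat.strong_induction_on with
  | _ L ih =>
    intro hL F s hR h hp
    have h1 : F 0 (1 + L + L) = F 0 1 := by rw [hp 0 le_rfl (by omega), hp 0 le_rfl (by omega)]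
    rw [h 0 le_rfl (by omega) _ (by omega), h 0 le_rfl (by omega) 1 rfl, Prod.mk.injEq, cast8] at h1
    obtain ⟨L', rfl⟩ : ∃ L', L = 2 * L' := ⟨L / 2, by omega⟩
    obtain ⟨α, γ, h2⟩ := step F hR s h
    refine ih L' (by omega) (by omega) (fun n m => F n (2 * (m + α * n + γ))) (s + 1)
      (fun i j => ?_) h2 fun n h0 hn m => ?_
    · convert hR (2 * (i + α)) (2 * (j + γ)) using 3
      ring
    · rw [← hp n h0 hn (2 * (m + α * n + γ))]
      congr 1
      push_cast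
      ring

/-- The letters of the intended solution. -/
noncomputable def letter (m : ℤ) : (ZMod 2 × ZMod 8) × ZMod 32 := (lu m, (m : ZMod 32))

theorem sudoku (F : ℤ → ℤ → (ZMod 2 × ZMod 8) × ZMod 32) (I J : ℤ → ℤ → ℤ)
    (hF : ∀ i j n : ℤ, 0 ≤ n → n < 8 → F n (i * n + j) = letter (I i j * n + J i j))
    (hI : (I 1 0 - I 0 0) % 2 = 1) (L : ℕ) (hL : 0 < L) :
    ¬ ∀ n : ℤ, 0 ≤ n → n < 8 → ∀ m, F n (m + L) = F n m := by
  intro hp
  have h0 : ∀ n : ℤ, 0 ≤ n → n < 8 → ∀ m, F n m = letter (I 0 m * n + J 0 m) := fun n h0 hn m => by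
    simpa using hF 0 m n h0 hn
  have h1 : ∀ i j n m : ℤ, 0 ≤ n → n < 8 → m = i * n + j →
      (I i j * n + J i j - (I 0 m * n + J 0 m)) % 32 = 0 := by
    rintro i j n m h1 hn rfl
    have := congrArg Prod.snd ((h0 n h1 hn _).symm.trans (hF i j n h1 hn))
    simp only [letter] at this
    exact Int.emod_eq_zero_of_dvd ((ZMod.intCast_eq_intCast_iff_dvd_sub _ _ 32).1 this)
  have h2 : ∀ j, (I 0 (j + 1) - I 0 j) % 8 = 0 ∧
      (J 0 (j + 2) - J 0 (j + 1) - (J 0 (j + 1) - J 0 j)) % 8 = 0 := by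
    intro j
    have a0 := h1 1 j 0 j (by omega) (by omega) (by ring)
    have a1 := h1 1 j 1 (j + 1) (by omega) (by omega) (by ring)
    have a2 := h1 1 j 2 (j + 2) (by omega) (by omega) (by ring)
    have b0 := h1 (-1) (j + 2) 0 (j + 2) (by omega) (by omega) (by ring)
    have b1 := h1 (-1) (j + 2) 1 (j + 1) (by omega) (by omega) (by ring)
    have b2 := h1 (-1) (j + 2) 2 j (by omega) (by omega) (by ring)
    have c1 := h1 1 (j - 1) 1 j (by omega) (by omega) (by ring)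
    have c2 := h1 1 (j - 1) 2 (j + 1) (by omega) (by omega) (by ring)
    have c3 := h1 1 (j - 1) 3 (j + 2) (by omega) (by omega) (by ring)
    omega
  obtain ⟨A, hA⟩ : ∃ A, A = I 0 0 := ⟨_, rfl⟩
  obtain ⟨B, hB⟩ : ∃ B, B = J 0 1 - J 0 0 := ⟨_, rfl⟩
  obtain ⟨C, hC⟩ : ∃ C, C = J 0 0 := ⟨_, rfl⟩
  have hB2 : B % 2 = 1 := by
    have a0 := h1 1 0 0 0 (by omega) (by omega) (by ring)
    have a1 := h1 1 0 1 1 (by omega) (by omega) (by ring)
    have := (h2 0).1
    rw [zero_add] at this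
    omega
  have h3 : ∀ m, (I 0 m : ZMod 8) = A := fun m => by
    have := lin (fun m => (I 0 m : ZMod 8)) 0 (fun m => by
      rw [add_zero]; exact (cast8.2 (h2 m).1).symm) m
    simpa [hA] using this
  have h4 : ∀ m, ((J 0 (m + 1) - J 0 m : ℤ) : ZMod 8) = B := fun m => by
    have := lin (fun m => ((J 0 (m + 1) - J 0 m : ℤ) : ZMod 8)) 0 (fun m => by
      rw [add_zero, add_assoc, one_add_one_eq_two]; exact (cast8.2 (h2 m).2).symm) m
    simpa [hB] using this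
  have h5 : ∀ m, (J 0 m : ZMod 8) = C + B * m := fun m => by
    rw [hC]
    refine lin (fun m => (J 0 m : ZMod 8)) B (fun m => ?_) m
    rw [← h4 m]
    push_cast
    ring
  have hBB : (B : ZMod 8) * B = 1 := by
    have : ((B * B : ℤ) : ZMod 8) = ((1 : ℤ) : ZMod 8) := by
      obtain ⟨k, rfl⟩ : ∃ k, B = 2 * k + 1 := ⟨B / 2, by omega⟩
      obtain ⟨r, hr⟩ := Int.even_mul_succ_self k
      rw [cast8, show 1 - (2 * k + 1) * (2 * k + 1) = -4 * (k * (k + 1)) by ring, hr]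
      omega
    simpa using this
  refine no_period L hL (fun n m => (F n (B * (m - A * n - C))).1) 0 (fun i j => ?_)
    (fun n h6 hn m hm => ?_) fun n h6 hn m => ?_
  · obtain ⟨a, b, s, hab, hw⟩ := rule_lu (I (B * (i - A)) (B * (j - C)))
      (J (B * (i - A)) (B * (j - C)))
    refine ⟨a, b, s, hab, fun n h6 hn => ?_⟩
    have := hF (B * (i - A)) (B * (j - C)) n h6 hn
    rw [show B * (i - A) * n + B * (j - C) = B * (i * n + j - A * n - C) by ring] at this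
    simp only [this]
    exact hw n h6 hn
  · simp only [h0 n h6 hn, letter]
    have h7 : ((I 0 (B * (m - A * n - C)) * n + J 0 (B * (m - A * n - C)) : ℤ) : ZMod 8) = m := by
      push_cast
      rw [h3, h5]
      push_cast
      linear_combination ((m : ZMod 8) - A * n - C) * hBB
    have h8 := cast8.1 h7
    have := lu_odd 0 (Int.odd_iff.2 (show (I 0 (B * (m - A * n - C)) * n +
      J 0 (B * (m - A * n - C))) % 2 = 1 by omega))
    rw [pow_zero, one_mul] at this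
    rw [this, h7]
    simp
  · have := lin (fun k => ((F n (B * (m - A * n - C) + k * L)).1.1,
      (F n (B * (m - A * n - C) + k * L)).1.2)) 0 (fun k => by
        rw [add_zero, add_mul, one_mul, ← add_assoc, hp n h6 hn]) B
    simp only [zero_mul, add_zero] at this
    rw [show B * (m + L - A * n - C) = B * (m - A * n - C) + B * L by ring]
    exact this

end Vale.Agent.P043
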