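import Vale.Agent.P043.Facts
import Vale.Agent.P043.Lift

/-! The aperiodic system in `ℤ³`. -/

namespace Vale.Agent.P043

/-- First gadget coordinate. -/
def r1 : Option (Ix × Bool) → ℤ × ℤ × ℤ → ℤ
  | some (some _, _), x => x.1
  | _, x => x.2.1

/-- Second gadget coordinate. -/
def r2 : Option (Ix × Bool) → ℤ × ℤ × ℤ → ℤ
  | none, x => x.1 + 2 * x.2.2
  | some _, x => x.2.2

/-- The gadget homomorphisms. -/
def rh (k : Option (Ix × Bool)) (n : ℕ) : ℤ × ℤ × ℤ →+ ZMod n × ZMod n where
  toFun x := ((r1 k x : ℤ), (r2 k x : ℤ))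
  map_zero' := by rcases k with _ | ⟨_ | _, _⟩ <;> simp [r1, r2]
  map_add' x y := by
    rcases k with _ | ⟨_ | _, _⟩ <;> simp [r1, r2]
    ring

theorem rh_apply (k n x) : rh k n x = (((r1 k x : ℤ) : ZMod n), ((r2 k x : ℤ) : ZMod n)) := rfl

/-- The first coordinate. -/
def ph (n : ℕ) : ℤ × ℤ × ℤ →+ ZMod n where
  toFun x := x.1
  map_zero' := by simp
  map_add' x y := by simp

theorem ph_apply (n x) : ph n x = ((x.1 : ℤ) : ZMod n) := rfl

/-- The last coordinate. -/
def sg (n : ℕ) : ℤ × ℤ × ℤ →+ ZMod n where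
  toFun x := x.2.2
  map_zero' := by simp
  map_add' x y := by simp

theorem sg_apply (n x) : sg n x = ((x.2.2 : ℤ) : ZMod n) := rfl

/-- The column directions. -/
def d1 : Option (Ix × Bool) → ℤ × ℤ × ℤ
  | some (some a, _) => (1, -(4 * a.1.val), 0)
  | _ => (0, 1, 0)

/-- The intended states. -/
noncomputable def st (x : ℤ × ℤ × ℤ) : Ix → Bool
  | none => decide (x.1 % 2 = 0)
  | some a => decide (letter (x.1 * a.1.val + x.2.1 / 4) = a.2)

theorem st_col (x : ℤ × ℤ × ℤ) (a) (c : ℤ) :
    st (x - c • (1, -(4 * (a.1.val : ℤ)), 0)) (some a) = st x (some a) := by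
  have : (x.1 - c) * a.1.val + (x.2.1 + c * (4 * a.1.val)) / 4 = x.1 * a.1.val + x.2.1 / 4 := by
    rw [show c * (4 * (a.1.val : ℤ)) = 4 * (c * a.1.val) by ring,
      Int.add_mul_ediv_left _ _ (by decide)]
    ring
  simp [st, this]

theorem st_last (x : ℤ × ℤ × ℤ) (c : ℤ) : st (x - (0, 0, c)) = st x := by
  funext v
  cases v <;> simp [st]

theorem sud (β : ℤ × ℤ → Ix → Bool) (h1 : ∀ x, ∃ g, β x = st g)
    (h2 : ∀ x a, β (x - (1, -(a.1.val : ℤ))) (some a) = β x (some a))
    (h4 : β (1, 0) none ≠ β (0, 0) none) (N : ℕ) (hN : 0 < N) : ¬ ∀ x y, β (x + N • y) = β x := by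
  intro hp
  choose z hz using h1
  have h3 : ∀ (n : Fin 8) σ (i j : ℤ),
      β (i, j) (some (n, σ)) = β (0, i * n.val + j) (some (n, σ)) := by
    intro n σ i j
    have h5 : ∀ k m : ℤ, β (k + 1, m - (k + 1) * n.val) (some (n, σ)) =
        β (k, m - k * n.val) (some (n, σ)) := fun k m => by
      rw [← h2 (k + 1, m - (k + 1) * n.val) (n, σ), Prod.mk_sub_mk]
      congr 2 <;> ring
    have h6 : ∀ k m : ℤ, β (k, m - k * n.val) (some (n, σ)) = β (0, m) (some (n, σ)) := by
      intro k m
      induction k using Int.induction_on with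
      | zero => simp
      | succ k ih => rw [h5, ih]
      | pred k ih => rw [← h5, sub_add_cancel, ih]
    rw [← h6 i, add_sub_cancel_left]
  have h5 : ∀ (x x' : ℤ × ℤ) (n : Fin 8), (∀ σ, β x (some (n, σ)) = β x' (some (n, σ))) →
      letter ((z x).1 * n.val + (z x).2.1 / 4) = letter ((z x').1 * n.val + (z x').2.1 / 4) := by
    intro x x' n h
    have := h (letter ((z x').1 * n.val + (z x').2.1 / 4))
    rw [hz x, hz x'] at this
    simpa [st] using this
  refine sudoku (fun n m => letter ((z (0, m)).1 * n + (z (0, m)).2.1 / 4))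
    (fun i j => (z (i, j)).1) (fun i j => (z (i, j)).2.1 / 4) (fun i j n h6 h7 => ?_) ?_ N hN
    fun n h6 h7 m => ?_
  · lift n to ℕ using h6
    exact (h5 _ _ ⟨n, by omega⟩ fun σ => h3 _ σ i j).symm
  · rw [hz, hz] at h4
    simp only [st, ne_eq, decide_eq_decide] at h4
    omega
  · lift n to ℕ using h6
    refine h5 _ _ ⟨n, by omega⟩ fun σ => ?_
    have := hp (0, m) (0, 1)
    simp only [Prod.smul_mk, smul_zero, nsmul_eq_mul, mul_one, Prod.mk_add_mk, add_zero] at this
    rw [this]

theorem exists_moduli : ∃ (q : Option (Ix × Bool) → ℕ) (p : Ix → ℕ)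
    (c : Option (Ix × Bool) ⊕ Ix → ℤ), q none = 2 ∧ (∀ k, 1 < q k) ∧ (∀ v, 1 < p v) ∧
    (∀ k, (c (.inl k) : ZMod (q k ^ 2)) = 1) ∧ (∀ v, (c (.inr v) : ZMod (p v)) = 1) ∧
    (∀ k μ, μ ≠ .inl k → (c μ : ZMod (q k ^ 2)) = 0) ∧
    ∀ v μ, μ ≠ .inr v → (c μ : ZMod (p v)) = 0 := by
  classical
  obtain ⟨e, he⟩ := Countable.exists_injective_nat (Option (Ix × Bool) ⊕ Ix)
  obtain ⟨m, h0, h1, h2⟩ : ∃ m : Option (Ix × Bool) ⊕ Ix → ℕ, m (.inl none) = 2 ∧ (∀ μ, 1 < m μ) ∧
      Pairwise fun μ μ' => (m μ).Coprime (m μ') := by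
    have h2 : ∀ k, Nat.Coprime 2 (Nat.fermatNumber k) := fun k =>
      (Nat.coprime_two_left).2 (Nat.odd_fermatNumber k)
    refine ⟨fun μ => if μ = .inl none then 2 else Nat.fermatNumber (e μ), if_pos rfl, fun μ => ?_,
      fun μ μ' h => ?_⟩
    · beta_reduce
      split_ifs
      · decide
      · exact (Nat.three_le_fermatNumber _).trans_lt' (by decide)
    · beta_reduce
      split_ifs with h3 h4
      · exact absurd (h3.trans h4.symm) h
      · exact h2 _
      · exact (h2 _).symm
      · exact Nat.coprime_fermatNumber_fermatNumber (he.ne h)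
  choose c hc using fun μ => crt (fun μ => Sum.elim (fun k => m (.inl k) ^ 2) (fun v => m (.inr v)) μ)
    (by
      rintro (k | v)
      · have := h1 (.inl k)
        simp only [Sum.elim_inl]
        nlinarith
      · exact h1 _)
    (by
      rintro (k | v) (k' | v') h
      · exact (h2 h).pow _ _
      · exact (h2 h).pow_left _
      · exact (h2 h).pow_right _
      · exact h2 h) fun μ' => if μ = μ' then 1 else 0
  exact ⟨fun k => m (.inl k), fun v => m (.inr v), c, h0, fun _ => h1 _, fun _ => h1 _,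
    fun k => (hc _ (.inl k)).trans (if_pos rfl), fun v => (hc _ (.inr v)).trans (if_pos rfl),
    fun k μ h => (hc μ (.inl k)).trans (if_neg h), fun v μ h => (hc μ (.inr v)).trans (if_neg h)⟩

theorem aper_three : Aper (ℤ × ℤ × ℤ) := by
  obtain ⟨q, p, c, h2, hq, hp, c1, c2, c3, c4⟩ := exists_moduli
  have : ∀ k, Fact (1 < q k) := fun k => ⟨hq k⟩
  have : ∀ v, Fact (1 < p v) := fun v => ⟨hp v⟩
  have a1 : ∀ k x, rh k (q k ^ 2) (c (.inl k) • x) = rh k _ x := fun k x => by
    rw [map_zsmul, ← Int.cast_smul_eq_zsmul (ZMod (q k ^ 2)), c1, one_smul]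
  have a3 : ∀ k μ, μ ≠ .inl k → ∀ x, rh k (q k ^ 2) (c μ • x) = 0 := fun k μ h x => by
    rw [map_zsmul, ← Int.cast_smul_eq_zsmul (ZMod (q k ^ 2)), c3 k μ h, zero_smul]
  have a4 : ∀ v (φ : ℤ × ℤ × ℤ →+ ZMod (p v)) μ, μ ≠ .inr v → ∀ x, φ (c μ • x) = 0 :=
    fun v φ μ h x => by rw [map_zsmul, zsmul_eq_mul, c4 v μ h, zero_mul]
  have a5 : ((2 : ℤ) : ZMod (q none ^ 2)) = io (q none) 1 := by
    rw [io_one, h2]
    rfl
  refine Data.aper (q := q) (p := p)
    { ρ := fun k => rh k _
      σ := fun v => sg _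
      π := fun v => ph _
      d := fun k => c (.inl k) • d1 k
      r := fun k => c (.inl k) • k.elim (1, 0, 0) fun _ => (0, 0, 1)
      e := fun k => c (.inl k) • ((0 : ℤ), (0 : ℤ), k.elim (1 : ℤ) fun _ => (q k : ℤ))
      f := fun v => c (.inr v) • (0, 0, 1)
      w := fun v => c (.inr v) • (1, 0, 0)
      l := c (.inl none) • (0, 4, 0)
      star := none
      col := fun v => v.elim 0 fun a => a.1.val
      b := st
      ρd := fun k => by
        rw [a1]
        rcases k with _ | ⟨_ | _, _⟩ <;> simp [rh_apply, r1, r2, d1]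
      ρr := fun k => by
        rw [a1]
        rcases k with _ | ⟨_ | _, _⟩ <;> simp [rh_apply, r1, r2]
      ρe := fun k => by
        rw [a1]
        rcases k with _ | ⟨_ | _, _⟩
        · simpa [rh_apply, r1, r2] using a5
        all_goals simp [rh_apply, r1, r2, io_one]
      ρd' := fun k k' h => a3 _ _ (by simpa using h.symm) _
      ρr' := fun k k' h => a3 _ _ (by simpa using h.symm) _
      ρe' := fun k k' h => a3 _ _ (by simpa using h.symm) _
      ρf := fun k v => a3 _ _ (by simp) _
      ρw := fun k v => a3 _ _ (by simp) _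
      ρl := fun k => by
        cases k
        · have : (4 : ZMod (q none ^ 2)) = 0 := by
            rw [h2]
            rfl
          simp [rh_apply, r1, r2, this]
        · exact a3 _ _ (by simp) _
      σd := fun v k => a4 _ _ _ (by simp) _
      σr := fun v k => a4 _ _ _ (by simp) _
      σe := fun v k => a4 _ _ _ (by simp) _
      σf := fun v => by simp [c2, sg_apply]
      σf' := fun v v' h => a4 _ _ _ (by simpa using h.symm) _
      σw := fun v v' => by simp [sg_apply]
      σl := fun v => a4 _ _ _ (by simp) _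
      πd := fun v k => a4 _ _ _ (by simp) _
      πr := fun v k => a4 _ _ _ (by simp) _
      πe := fun v k => a4 _ _ _ (by simp) _
      πf := fun v v' => by simp [ph_apply]
      πw := fun v => by simp [c2, ph_apply]
      πw' := fun v v' h => a4 _ _ _ (by simpa using h.symm) _
      πl := fun v => a4 _ _ _ (by simp) _
      be := fun k g => by simpa using st_last g _
      bf := fun v g => by simpa using st_last g _
      br := fun a g => by simpa using st_last g _
      bd := by
        rintro (_ | a) β g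
        · simp [st, d1]
        · exact st_col g a _
      bd0 := fun g => by simp [st, d1]
      bl := by
        rintro (_ | a) h g
        · exact absurd rfl h
        · rw [← st_col g a (c (.inl none))]
          congr 2
          ext <;> simp
          ring
      bstar := fun g => by
        have h : ((2 : ℤ) : ZMod (q none)) = 0 := by
          rw [h2]
          rfl
        simp only [st, rh_apply, r2, map_intCast, decide_eq_decide]
        rw [Int.cast_add, Int.cast_mul, h, zero_mul, add_zero, ZMod.intCast_zmod_eq_zero_iff_dvd,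
          h2]
        omega }
    (fun K => (Submodule.fg_iff_addSubgroup_fg (AddSubgroup.toIntSubmodule K)).1
      (IsNoetherian.noetherian _)) h2
    fun β h1 h3 h4 => sud β h1 (fun x a => h3 x (some a) (by simp)) h4

theorem aper_int3 (d : ℕ) (hd : 3 ≤ d) : Aper (Fin d → ℤ) := by
  let π : (Fin d → ℤ) →+ ℤ × ℤ × ℤ :=
    { toFun := fun x => (x ⟨0, by omega⟩, x ⟨1, by omega⟩, x ⟨2, by omega⟩)
      map_zero' := by ext <;> simp
      map_add' := fun x y => by ext <;> simp }
  refine aper_three.lift π ?_ ?_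
  · rintro ⟨i, j, z⟩
    refine ⟨fun k => if k.val = 0 then i else if k.val = 1 then j else z, ?_⟩
    ext <;> simp [π]
  · exact (Submodule.fg_iff_addSubgroup_fg (AddSubgroup.toIntSubmodule π.ker)).1
      (IsNoetherian.noetherian _)

end Vale.Agent.P043
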