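import Vale.Agent.P043.Logic
import Vale.Agent.P043.Sudoku

/-! The two kinds of boolean variables, and the encoded Sudoku. -/

namespace Vale.Agent.P043

theorem til_graph {K : Type} [AddCommGroup K] (σ : K ≃ K) (b : Bool) :
    Til {y : K × K | if b then y.1 = 0 else y.2 = 0} fun u => (u, σ u) := by
  cases b
  · refine ⟨fun ⟨x, y⟩ => ⟨(x - σ.symm y, 0), by simp, σ.symm y, by simp⟩, ?_⟩
    rintro ⟨a, b⟩ h ⟨a', b'⟩ h' u u' e
    simp only [Set.mem_ofPred_eq, Bool.false_eq_true, if_false] at h h'
    simp only [h, h', Prod.mk_add_mk, zero_add, Prod.mk.injEq] at e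
    exact σ.injective e.2
  · refine ⟨fun ⟨x, y⟩ => ⟨(0, y - σ x), by simp, x, by simp⟩, ?_⟩
    rintro ⟨a, b⟩ h ⟨a', b'⟩ h' u u' e
    simp only [Set.mem_ofPred_eq, if_true] at h h'
    simp only [h, h', Prod.mk_add_mk, zero_add, Prod.mk.injEq] at e
    exact e.1

/-- A variable whose states are the two coordinate axes. -/
def axes (K : Type) [AddCommGroup K] [Finite K] (e : K) (he : e ≠ 0) : Var (K × K) false where
  T := K
  fin := inferInstance
  t := fun u => (u, u)
  S := fun b => {y | if b then y.1 = 0 else y.2 = 0}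
  til := til_graph (Equiv.refl K)
  sep := by
    classical
    intro d hd
    have h1 : d.1 ≠ 0 := fun h => hd true ⟨d, by simp [h], 0, by simp, sub_zero d⟩
    have h2 : d.2 ≠ 0 := fun h => hd false ⟨d, by simp [h], 0, by simp, sub_zero d⟩
    exact ⟨fun u => (u, Equiv.swap d.1 d.2 u), d.1, 0, til_graph _, by
      simp [Equiv.swap_apply_of_ne_of_ne h1.symm h2.symm]⟩
  box := by
    intro B hB
    have h : ∀ y ∈ B, ∀ y' ∈ B, y.1 = y'.1 ∨ y.2 = y'.2 := by
      intro y hy y' hy'
      obtain ⟨b, s, hs, s', hs', e⟩ := hB y hy y' hy'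
      cases b
      · refine Or.inr (sub_eq_zero.1 ?_)
        simp only [Set.mem_ofPred_eq, Bool.false_eq_true, if_false] at hs hs'
        rw [← Prod.snd_sub, ← e, Prod.snd_sub, hs, hs', sub_zero]
      · refine Or.inl (sub_eq_zero.1 ?_)
        simp only [Set.mem_ofPred_eq, if_true] at hs hs'
        rw [← Prod.fst_sub, ← e, Prod.fst_sub, hs, hs', sub_zero]
    rcases B.eq_empty_or_nonempty with rfl | ⟨y0, h0⟩
    · exact ⟨false, 0, by simp⟩
    by_cases h1 : ∀ y ∈ B, y.2 = y0.2
    · exact ⟨false, y0, fun y hy => by simp [h1 y hy]⟩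
    · push Not at h1
      obtain ⟨y1, h1, h2⟩ := h1
      refine ⟨true, y0, fun y hy => ?_⟩
      have := h y hy y0 h0
      have := h y hy y1 h1
      have := h y1 h1 y0 h0
      simp only [Set.mem_ofPred_eq, if_true, Prod.fst_sub, sub_eq_zero]
      grind
  clause := by
    rintro (_ | _)
    · refine ⟨(0, -e), fun v => v = e, e, 0, fun s hs s' hs' v v' h => ?_, rfl, he.symm,
        0, by simp, (e, 0), by simp, by simp⟩
      have := congrArg Prod.fst h
      simp only [Bool.not_false, Set.mem_ofPred_eq, if_true] at hs hs'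
      simp only [Prod.fst_add, hs, hs', zero_add, add_zero] at this
      rw [this]
    · refine ⟨(-e, 0), fun v => v = e, e, 0, fun s hs s' hs' v v' h => ?_, rfl, he.symm,
        0, by simp, (0, e), by simp, by simp⟩
      have := congrArg Prod.snd h
      simp only [Bool.not_true, Set.mem_ofPred_eq, Bool.false_eq_true, if_false] at hs hs'
      simp only [Prod.snd_add, hs, hs', zero_add, add_zero] at this
      rw [this]
  rel := by
    refine ⟨{({0}, 0)}, by rintro r rfl b y; simp only [Bool.xor_false, add_zero],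
      fun b b' o o' h => ?_⟩
    have h := h _ rfl
    simp only [Set.mem_singleton_iff, forall_eq, exists_eq_left, add_zero, add_left_inj] at h
    cases b <;> cases b'
    · rfl
    · obtain ⟨s, hs, e1⟩ := h 0 (by simp)
      obtain ⟨s', hs', e2⟩ := h (0, e) (by simp)
      have e3 := congrArg Prod.snd e1
      have e4 := congrArg Prod.snd e2
      simp only [Set.mem_ofPred_eq, Bool.false_eq_true, if_false] at hs hs'
      simp only [Prod.snd_add, hs, hs', zero_add] at e3 e4
      exact absurd (by simpa [e3] using e4) he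
    · obtain ⟨s, hs, e1⟩ := h 0 (by simp)
      obtain ⟨s', hs', e2⟩ := h (e, 0) (by simp)
      have e3 := congrArg Prod.fst e1
      have e4 := congrArg Prod.fst e2
      simp only [Set.mem_ofPred_eq, if_true] at hs hs'
      simp only [Prod.fst_add, hs, hs', zero_add] at e3 e4
      exact absurd (by simpa [e3] using e4) he
    · rfl

/-- The two dominoes. -/
def dom (b : Bool) : Finset (ZMod 4 × ZMod 4) := if b then {(0, 1), (1, 0)} else {(0, 0), (1, 1)}

/-- The two common tiles of the dominoes. -/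
def domT (c : Bool) (u : Bool × ZMod 4) : ZMod 4 × ZMod 4 :=
  if c then (u.2, if u.1 then 2 else 0) else (if u.1 then 2 else 0, u.2)

theorem til_dom (c b : Bool) : Til (dom b : Set (ZMod 4 × ZMod 4)) (domT c) := by
  simp only [Til, Finset.mem_coe]
  revert b c
  decide +kernel

/-- Differences of the dominoes. -/
def DomD (d : ZMod 4 × ZMod 4) : Prop := d = 0 ∨ (d.1.val % 2 = 1 ∧ d.2.val % 2 = 1)

instance : DecidablePred DomD := fun d => by unfold DomD; infer_instance

theorem dom_rel (b b' : Bool) (o o' : ZMod 4 × ZMod 4)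
    (h1 : ∀ s' ∈ dom b', ∀ u' : Bool × ZMod 4, u'.1 = false → ∃ s ∈ dom b, ∃ u : Bool × ZMod 4,
      u.1 = false ∧ s' + o' + (domT false u' + 0) = s + o + domT false u)
    (h2 : ∀ s' ∈ dom b', ∀ u' : Bool × ZMod 4, u'.2 = 0 → ∃ s ∈ dom b, ∃ u : Bool × ZMod 4,
      u.2 = 0 ∧ s' + o' + (domT false u' + (1, 0)) = s + o + domT false u) : b' = xor b true := by
  have key : ∀ (b b' : Bool) (o : ZMod 4 × ZMod 4),
      (∀ s' ∈ dom b', ∃ s ∈ dom b, (s' + o).1 = s.1) →
      (∀ s' ∈ dom b', ∃ s ∈ dom b, ∃ c : Bool, s' + o + (1, 0) = s + domT false (c, 0)) →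
      b' = xor b true := by decide +kernel
  refine key b b' (o' - o) (fun s' hs' => ?_) fun s' hs' => ?_
  · obtain ⟨s, hs, u, hu, e⟩ := h1 s' hs' (false, 0) rfl
    refine ⟨s, hs, ?_⟩
    have := congrArg Prod.fst e
    simp only [domT, hu, Bool.false_eq_true, if_false, Prod.fst_add, add_zero] at this
    simp only [Prod.fst_add, Prod.fst_sub]
    linear_combination this
  · obtain ⟨s, hs, ⟨c, u⟩, rfl, e⟩ := h2 s' hs' (false, 0) rfl
    refine ⟨s, hs, c, ?_⟩
    have : domT false (false, 0) = 0 := rfl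
    rw [this, zero_add] at e
    linear_combination e

/-- An alternating variable. -/
def marker : Var (ZMod 4 × ZMod 4) true where
  T := Bool × ZMod 4
  fin := inferInstance
  t := domT false
  S := fun b => dom b
  til := til_dom false
  sep := by
    intro d hd
    have : ∀ d, (∀ b, ¬ ∃ s ∈ dom b, ∃ s' ∈ dom b, s - s' = d) →
      ∃ c u u', domT c u - domT c u' = d := by decide +kernel
    obtain ⟨c, u, u', e⟩ := this d hd
    exact ⟨domT c, u, u', til_dom c, e⟩
  box := by
    intro B hB
    have h1 : ∀ d, (∃ b, ∃ s ∈ dom b, ∃ s' ∈ dom b, s - s' = d) → DomD d := by decide +kernel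
    have h2 : ∀ e, e ≠ 0 → DomD e → ∃ b o, ∀ z, DomD z → DomD (z - e) → z - o ∈ dom b := by
      decide +kernel
    rcases B.eq_empty_or_nonempty with rfl | ⟨y0, h0⟩
    · exact ⟨false, 0, by simp⟩
    by_cases h3 : ∀ y ∈ B, y = y0
    · exact ⟨false, y0, fun y hy => by rw [h3 y hy, sub_self]; decide⟩
    · push Not at h3
      obtain ⟨y1, h3, h4⟩ := h3
      obtain ⟨b, o, h5⟩ := h2 (y1 - y0) (sub_ne_zero.2 h4) (h1 _ (hB _ h3 _ h0))
      refine ⟨b, y0 + o, fun y hy => ?_⟩
      rw [← sub_sub]
      exact h5 _ (h1 _ (hB _ hy _ h0)) (by rw [sub_sub_sub_cancel_right]; exact h1 _ (hB _ hy _ h3))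
  clause := by
    intro γ
    have h1 : ∀ γ : Bool, ∀ s ∈ dom (!γ), ∀ s' ∈ dom (!γ), ∀ v v' : Bool × ZMod 4,
        s + (domT false v + if γ then (1, 1) else (1, -1)) = s' + domT false v' →
        ((v = (false, 2) ∨ v = (true, 0)) ↔ (v' = (false, 2) ∨ v' = (true, 0))) := by
      decide +kernel
    have h2 : ∀ γ : Bool, ∃ s ∈ dom γ, ∃ s' ∈ dom γ,
        s + (domT false (false, 2) + if γ then (1, 1) else (1, -1)) =
          s' + domT false (false, 0) := by
      decide +kernel
    exact ⟨if γ then (1, 1) else (1, -1), fun v => v = (false, 2) ∨ v = (true, 0), (false, 2),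
      (false, 0), h1 γ, Or.inl rfl, by decide, h2 γ⟩
  rel := by
    refine ⟨{({u : Bool × ZMod 4 | u.1 = false}, 0), ({u : Bool × ZMod 4 | u.2 = 0}, (1, 0))}, ?_,
      fun b b' o o' h => dom_rel b b' o o' (h _ (Or.inl rfl)) (h _ (Or.inr rfl))⟩
    rintro r (rfl | rfl) <;> simp only [Finset.mem_coe, Set.mem_ofPred_eq] <;> decide +kernel

/-- The variables: the marker and one variable for every column and letter. -/
abbrev Ix : Type := Option (Fin 8 × ((ZMod 2 × ZMod 8) × ZMod 32))

theorem aper_main (q : Ix → ℕ) (h4 : q none = 4) (hq : ∀ n, 2 ≤ q n) :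
    Aper ((ℤ × ℤ) × ∀ n, ZMod (q n) × ZMod (q n)) := by
  classical
  have : ∀ n, NeZero (q n) := fun n => ⟨by have := hq n; omega⟩
  have hV : ∀ n, Nonempty (Var (ZMod (q n) × ZMod (q n)) n.isNone) := by
    rintro (_ | n)
    · rw [h4]
      exact ⟨marker⟩
    · have : Fact (1 < q (some n)) := ⟨hq _⟩
      exact ⟨axes _ 1 one_ne_zero⟩
  refine aper_of_vars (fun n => (hV n).some)
    (fun n => n.elim (1, 0) fun p => (1, -(p.1.val : ℤ)))
    (fun x n => n.elim (decide (x.1 % 2 = 1)) fun p => decide (letter (x.1 * p.1.val + x.2) = p.2))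
    ?_ fun β h1 h2 N hN hp => ?_
  · rintro ⟨i, j⟩ (_ | ⟨n, σ⟩)
    · simp only [Option.elim_none, Prod.mk_sub_mk, Option.isNone_none, Bool.xor_true]
      rcases Int.emod_two_eq_zero_or_one i with h | h
      · simp [h, show (i - 1) % 2 = 1 by omega]
      · simp [h, show (i - 1) % 2 = 0 by omega]
    · simp only [Option.elim_some, Prod.mk_sub_mk, Option.isNone_some, Bool.xor_false,
        show (i - 1) * (n.val : ℤ) + (j - -(n.val : ℤ)) = i * n.val + j by ring]
  · choose z hz using h1
    have h3 : ∀ (n : Fin 8) σ (i j : ℤ),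
        β (i, j) (some (n, σ)) = β (0, i * n.val + j) (some (n, σ)) := by
      intro n σ i j
      have h5 : ∀ k m : ℤ, β (k + 1, m - (k + 1) * n.val) (some (n, σ)) =
          β (k, m - k * n.val) (some (n, σ)) := fun k m => by
        have := h2 (k + 1, m - (k + 1) * n.val) (some (n, σ))
        simp only [Option.elim_some, Prod.mk_sub_mk, Option.isNone_some, Bool.xor_false] at this
        rw [← this]
        congr 2 <;> ring
      have h6 : ∀ k m : ℤ, β (k, m - k * n.val) (some (n, σ)) = β (0, m) (some (n, σ)) := by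
        intro k m
        induction k using Int.induction_on with
        | zero => simp
        | succ k ih => rw [h5, ih]
        | pred k ih => rw [← h5, sub_add_cancel, ih]
      rw [← h6 i, add_sub_cancel_left]
    have h5 : ∀ (x x' : ℤ × ℤ) (n : Fin 8), (∀ σ, β x (some (n, σ)) = β x' (some (n, σ))) →
        letter ((z x).1 * n.val + (z x).2) = letter ((z x').1 * n.val + (z x').2) := by
      intro x x' n h
      have := h (letter ((z x').1 * n.val + (z x').2))
      rw [hz x, hz x'] at this
      simpa using this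
    refine sudoku (fun n m => letter ((z (0, m)).1 * n + (z (0, m)).2)) (fun i j => (z (i, j)).1)
      (fun i j => (z (i, j)).2) (fun i j n h6 h7 => ?_) ?_ N hN fun n h6 h7 m => ?_
    · lift n to ℕ using h6
      exact (h5 _ _ ⟨n, by omega⟩ fun σ => h3 _ σ i j).symm
    · have := h2 (1, 0) none
      rw [hz, hz] at this
      simp only [Option.elim_none, sub_self, Option.isNone_none, Bool.xor_true] at this
      have e : (0 : ℤ × ℤ) = (0, 0) := rfl
      rw [e] at this
      rcases Int.emod_two_eq_zero_or_one (z (1, 0)).1 with h | h <;>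
        rcases Int.emod_two_eq_zero_or_one (z (0, 0)).1 with h' | h' <;>
        simp [h, h'] at this <;> omega
    · lift n to ℕ using h6
      refine h5 _ _ ⟨n, by omega⟩ fun σ => ?_
      have := hp (0, m) (0, 1)
      simp only [Prod.smul_mk, smul_zero, nsmul_eq_mul, mul_one, Prod.mk_add_mk, add_zero] at this
      rw [this]

end Vale.Agent.P043
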